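import Vale.Agent.P097.H226.Harn

/-!
# P097 / case [c] / W-OCT: Harnack for strip valued functions in the quadrant tube
-/

set_option linter.all false

open Complex Metric Filter Topology Set

namespace Vale.Agent.P097.H983

variable {E : Type*} [NormedAddCommGroup E] [NormedSpace ℂ E]

/-- sharp Harnack inequality in the unit disc, upper bound -/
theorem harnack_up {H : ℂ → ℂ} (hH : DifferentiableOn ℂ H (ball 0 1))
    (hpos : ∀ z ∈ ball (0 : ℂ) 1, 0 < (H z).re) {c : ℂ} (hc : c ∈ ball (0 : ℂ) 1) :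
    (1 - ‖c‖) * (H c).re ≤ (1 + ‖c‖) * (H 0).re := by
  have h0 : (0 : ℂ) ∈ ball (0 : ℂ) 1 := mem_ball_self one_pos
  set Y := H 0 with hY
  have hYp : 0 < Y.re := hpos 0 h0
  have hden : ∀ z ∈ ball (0 : ℂ) 1, H z + (starRingEnd ℂ) Y ≠ 0 := by
    intro z hz h
    have := congrArg Complex.re h
    simp at this
    linarith [hpos z hz]
  have key : ∀ X : ℂ, ‖X + (starRingEnd ℂ) Y‖ ^ 2 - ‖X - Y‖ ^ 2 = 4 * X.re * Y.re := by
    intro X
    rw [← Complex.normSq_eq_norm_sq, ← Complex.normSq_eq_norm_sq, normSq_apply, normSq_apply]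
    simp only [add_re, add_im, sub_re, sub_im, conj_re, conj_im]
    ring
  set φ : ℂ → ℂ := fun z => (H z - Y) / (H z + (starRingEnd ℂ) Y) with hφ
  have hφd : DifferentiableOn ℂ φ (ball 0 1) :=
    (hH.sub (differentiableOn_const _)).div (hH.add (differentiableOn_const _)) hden
  have hmaps : MapsTo φ (ball 0 1) (ball 0 1) := by
    intro z hz
    rw [mem_ball_zero_iff, hφ]
    simp only
    have h1 : 0 < ‖H z + (starRingEnd ℂ) Y‖ := norm_pos_iff.mpr (hden z hz)
    rw [norm_div, div_lt_one h1]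
    have h2 := key (H z)
    have h3 : 0 < 4 * (H z).re * Y.re := by
      have := hpos z hz
      positivity
    nlinarith [norm_nonneg (H z - Y)]
  have hφ0 : φ 0 = 0 := by simp [hφ, ← hY]
  have h1 : ‖φ c‖ ≤ ‖c‖ := by
    rw [mem_ball_zero_iff] at hc
    exact norm_le_norm_of_mapsTo_ball hφd (hmaps.mono_right ball_subset_closedBall) hφ0 hc
  set X := H c with hX
  have hXp : 0 < X.re := hpos c hc
  have h2 : 0 < ‖X + (starRingEnd ℂ) Y‖ := norm_pos_iff.mpr (hden c hc)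
  have h3 : ‖X - Y‖ ≤ ‖c‖ * ‖X + (starRingEnd ℂ) Y‖ := by
    have : ‖φ c‖ = ‖X - Y‖ / ‖X + (starRingEnd ℂ) Y‖ := by rw [hφ]; simp only [norm_div, ← hX]
    rw [this, div_le_iff₀ h2] at h1
    exact h1
  have hc1 : ‖c‖ < 1 := mem_ball_zero_iff.mp hc
  have hc0 := norm_nonneg c
  have h4 := key X
  have h5 : X.re + Y.re ≤ ‖X + (starRingEnd ℂ) Y‖ := by
    have := Complex.re_le_norm (X + (starRingEnd ℂ) Y)
    simpa using this
  have h6 : (1 - ‖c‖ ^ 2) * (X.re + Y.re) ^ 2 ≤ 4 * X.re * Y.re := by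
    have e1 : ‖X - Y‖ ^ 2 ≤ ‖c‖ ^ 2 * ‖X + (starRingEnd ℂ) Y‖ ^ 2 := by
      rw [← mul_pow]
      exact pow_le_pow_left₀ (norm_nonneg _) h3 2
    have e2 : (X.re + Y.re) ^ 2 ≤ ‖X + (starRingEnd ℂ) Y‖ ^ 2 :=
      pow_le_pow_left₀ (by positivity) h5 2
    have e3 : 0 ≤ 1 - ‖c‖ ^ 2 := by nlinarith
    nlinarith [mul_le_mul_of_nonneg_left e2 e3]
  have h7 : ((1 + ‖c‖) * X.re - (1 - ‖c‖) * Y.re) * ((1 - ‖c‖) * X.re - (1 + ‖c‖) * Y.re) ≤ 0 := by
    nlinarith
  by_contra hcon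
  push Not at hcon
  have h9 : 0 < (1 - ‖c‖) * X.re - (1 + ‖c‖) * Y.re := by linarith
  have h8 : 0 < (1 + ‖c‖) * X.re - (1 - ‖c‖) * Y.re := by nlinarith
  nlinarith [mul_pos h8 h9]

/-- Harnack in a ball of a complex normed space -/
theorem harnack2 {g : E → ℂ} {c z : E} {R : ℝ} (hg : DifferentiableOn ℂ g (ball c R))
    (hp : ∀ y ∈ ball c R, 0 < (g y).re) (hz : ‖z - c‖ < R) :
    (R - ‖z - c‖) * (g c).re ≤ (R + ‖z - c‖) * (g z).re ∧
      (R - ‖z - c‖) * (g z).re ≤ (R + ‖z - c‖) * (g c).re := by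
  have hR : 0 < R := (norm_nonneg _).trans_lt hz
  rcases eq_or_ne (z - c) 0 with h0 | h0
  · have : z = c := sub_eq_zero.1 h0
    rw [h0, this]
    simp
  have hn : 0 < ‖z - c‖ := norm_pos_iff.2 h0
  set φ : ℂ → E := fun t => c + (t * ((R / ‖z - c‖ : ℝ) : ℂ)) • (z - c) with hφ
  have hmap : MapsTo φ (ball 0 1) (ball c R) := by
    intro t ht
    rw [mem_ball_zero_iff] at ht
    rw [hφ, mem_ball, dist_eq_norm, add_sub_cancel_left, norm_smul, norm_mul, Complex.norm_real,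
      Real.norm_eq_abs, abs_of_pos (by positivity), mul_assoc, div_mul_cancel₀ _ hn.ne']
    nlinarith
  have hd : DifferentiableOn ℂ φ (ball 0 1) := by rw [hφ]; fun_prop
  have hm : ((‖z - c‖ / R : ℝ) : ℂ) ∈ ball (0 : ℂ) 1 := by
    rw [mem_ball_zero_iff, Complex.norm_real, Real.norm_eq_abs, abs_of_pos (by positivity),
      div_lt_one hR]
    exact hz
  have h1 := H226.harnack_centre (H := fun t => g (φ t)) (hg.comp hd hmap)
    (fun t ht => hp _ (hmap ht)) hm
  have h1' := harnack_up (H := fun t => g (φ t)) (hg.comp hd hmap)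
    (fun t ht => hp _ (hmap ht)) hm
  have e0 : φ 0 = c := by simp [hφ]
  have e1 : φ ((‖z - c‖ / R : ℝ) : ℂ) = z := by
    rw [hφ]
    simp only []
    rw [← Complex.ofReal_mul, div_mul_div_comm, mul_comm, div_self (by positivity), ofReal_one,
      one_smul]
    abel
  simp only [e0, e1, Complex.norm_real, Real.norm_eq_abs, abs_of_pos (div_pos hn hR)] at h1 h1'
  have e2 : ∀ x : ℝ, R * ((1 - ‖z - c‖ / R) * x) = (R - ‖z - c‖) * x := by
    intro x; field_simp
  have e3 : ∀ x : ℝ, R * ((1 + ‖z - c‖ / R) * x) = (R + ‖z - c‖) * x := by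
    intro x; field_simp
  have h2 := mul_le_mul_of_nonneg_left h1 hR.le
  have h2' := mul_le_mul_of_nonneg_left h1' hR.le
  rw [e2, e3] at h2 h2'
  exact ⟨h2, h2'⟩

/-- Borel-Caratheodory in a ball of a complex normed space -/
theorem borel {g : E → ℂ} {c z : E} {R M : ℝ} (hM : 0 < M) (hg : DifferentiableOn ℂ g (ball c R))
    (hp : ∀ y ∈ ball c R, (g y - g c).re ≤ M) (hz : ‖z - c‖ < R) :
    ‖g z - g c‖ ≤ 2 * M * ‖z - c‖ / (R - ‖z - c‖) := by
  have hR : 0 < R := (norm_nonneg _).trans_lt hz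
  rcases eq_or_ne (z - c) 0 with h0 | h0
  · have : z = c := sub_eq_zero.1 h0
    rw [h0, this]
    simp
  have hn : 0 < ‖z - c‖ := norm_pos_iff.2 h0
  set φ : ℂ → E := fun t => c + (t * ((‖z - c‖⁻¹ : ℝ) : ℂ)) • (z - c) with hφ
  have hmap : MapsTo φ (ball 0 R) (ball c R) := by
    intro t ht
    rw [mem_ball_zero_iff] at ht
    rw [hφ, mem_ball, dist_eq_norm, add_sub_cancel_left, norm_smul, norm_mul, Complex.norm_real,
      Real.norm_eq_abs, abs_of_pos (by positivity), mul_assoc, inv_mul_cancel₀ hn.ne', mul_one]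
    exact ht
  have hd : DifferentiableOn ℂ φ (ball 0 R) := by rw [hφ]; fun_prop
  have e0 : φ 0 = c := by simp [hφ]
  have e1 : φ ((‖z - c‖ : ℝ) : ℂ) = z := by
    rw [hφ]
    simp only []
    rw [← Complex.ofReal_mul, mul_inv_cancel₀ hn.ne', ofReal_one, one_smul]
    abel
  have h1 := Complex.borelCaratheodory_zero (f := fun t => g (φ t) - g c) (M := M) (R := R)
    (z := ((‖z - c‖ : ℝ) : ℂ)) hM ((hg.comp hd hmap).sub_const _)
    (fun t ht => hp _ (hmap ht)) hR (by
      rw [mem_ball_zero_iff, Complex.norm_real, Real.norm_eq_abs, abs_of_pos hn]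
      exact hz) (by simp [e0])
  simpa [e1, abs_of_pos hn] using h1

section strip
variable {θ : E → ℂ} {c z : E} {R H : ℝ}

/-- the distance to the walls in a ball -/
theorem wall_ball (hθ : DifferentiableOn ℂ θ (ball c R)) (hs : ∀ y ∈ ball c R, |(θ y).im| < H)
    (hz : ‖z - c‖ < R) :
    (R - ‖z - c‖) * (H - |(θ c).im|) ≤ (R + ‖z - c‖) * (H - |(θ z).im|) ∧
      (R - ‖z - c‖) * (H - |(θ z).im|) ≤ (R + ‖z - c‖) * (H - |(θ c).im|) := by
  have hR : 0 < R := (norm_nonneg _).trans_lt hz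
  have key : ∀ s : ℝ, |s| = 1 → (R - ‖z - c‖) * (H - s * (θ c).im) ≤
      (R + ‖z - c‖) * (H - s * (θ z).im) ∧ (R - ‖z - c‖) * (H - s * (θ z).im) ≤
      (R + ‖z - c‖) * (H - s * (θ c).im) := by
    intro s hs1
    have h := harnack2 (g := fun y => (H : ℂ) + (s : ℂ) * I * θ y) (c := c) (z := z) (R := R)
      ((hθ.const_mul _).const_add _) (fun y hy => by
        have h1 := hs y hy
        have h2 : |s * (θ y).im| < H := by rw [abs_mul, hs1, one_mul]; exact h1
        have h3 := (abs_lt.1 h2).2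
        simp
        linarith) hz
    have e : ∀ y, ((H : ℂ) + (s : ℂ) * I * θ y).re = H - s * (θ y).im := by
      intro y
      simp
      ring
    rw [e, e] at h
    exact h
  have hc0 : 0 ≤ R - ‖z - c‖ := by linarith
  have hc1 : ∀ x y : E, |(θ x).im| ≤ H → (R - ‖z - c‖) * (H - |(θ y).im|) ≤
      (R - ‖z - c‖) * (H - 1 * (θ y).im) ∧ (R - ‖z - c‖) * (H - |(θ y).im|) ≤
      (R - ‖z - c‖) * (H - (-1) * (θ y).im) := fun x y _ =>
    ⟨mul_le_mul_of_nonneg_left (by linarith [le_abs_self (θ y).im]) hc0,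
      mul_le_mul_of_nonneg_left (by linarith [neg_le_abs (θ y).im]) hc0⟩
  have hH : |(θ c).im| ≤ H := (hs c (mem_ball_self hR)).le
  constructor
  · rcases abs_cases (θ z).im with ⟨h1, _⟩ | ⟨h1, _⟩
    · rw [h1]
      exact (hc1 c c hH).1.trans ((key 1 (by simp)).1.trans (le_of_eq (by ring)))
    · rw [h1]
      exact (hc1 c c hH).2.trans ((key (-1) (by simp)).1.trans (le_of_eq (by ring)))
  · rcases abs_cases (θ c).im with ⟨h1, _⟩ | ⟨h1, _⟩
    · rw [h1]
      exact (hc1 c z hH).1.trans ((key 1 (by simp)).2.trans (le_of_eq (by ring)))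
    · rw [h1]
      exact (hc1 c z hH).2.trans ((key (-1) (by simp)).2.trans (le_of_eq (by ring)))

/-- displacement in a ball -/
theorem move_ball (hθ : DifferentiableOn ℂ θ (ball c R)) (hs : ∀ y ∈ ball c R, |(θ y).im| < H)
    (hz : ‖z - c‖ < R) : ‖θ z - θ c‖ ≤ 4 * H * ‖z - c‖ / (R - ‖z - c‖) := by
  have hR : 0 < R := (norm_nonneg _).trans_lt hz
  have hH : 0 < H := (abs_nonneg _).trans_lt (hs c (mem_ball_self hR))
  have h := borel (g := fun y => I * θ y) (c := c) (z := z) (R := R) (M := 2 * H) (by positivity)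
    (hθ.const_mul _) (fun y hy => by
      have h1 := (abs_lt.1 (hs y hy)).1
      have h2 := (abs_lt.1 (hs c (mem_ball_self hR))).2
      simp
      linarith) hz
  rw [← mul_sub, norm_mul, Complex.norm_I, one_mul] at h
  refine h.trans (le_of_eq (by ring))

end strip

/-! ### the quadrant tube -/

/-- the quadrant tube, in the coordinates `t' = t - Ψ w` (same text as 881's `QT`) -/
def QT (h : ℝ) (p : ℂ × ℂ) (X : ℝ) : Set (ℂ × ℂ) :=
  {z | h < -z.1.im ∧ h < z.2.im ∧ dist z p < X}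

/-- the point `L` above -/
noncomputable def top (L : ℝ) (z : ℂ × ℂ) : ℂ × ℂ := (z.1 - L * I, z.2 + L * I)

theorem norm_top_sub {L : ℝ} (hL : 0 ≤ L) (z : ℂ × ℂ) : ‖z - top L z‖ = L := by
  have : z - top L z = ((L : ℂ) * I, -((L : ℂ) * I)) := by
    unfold top
    ext <;> simp
  rw [this, Prod.norm_def]
  simp [abs_of_nonneg hL]

theorem top_sub_top (L : ℝ) (z b : ℂ × ℂ) : top L z - top L b = z - b := by
  unfold top
  ext <;> simp

/-- balls about the top point -/
theorem ball_top_sub {p z : ℂ × ℂ} {L d X Y : ℝ} (hL : 0 ≤ L) (h1 : d ≤ -z.1.im) (h2 : d ≤ z.2.im)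
    (hz : dist z p ≤ X) (hY : X + 2 * L + d ≤ Y) : ball (top L z) (L + d) ⊆ QT 0 p Y := by
  intro y hy
  have h3 : ‖y - top L z‖ < L + d := by rwa [mem_ball, dist_eq_norm] at hy
  rw [Prod.norm_def, max_lt_iff] at h3
  have h4 := (abs_le.1 ((Complex.abs_im_le_norm _).trans h3.1.le)).2
  have h4' := (Complex.abs_im_le_norm _).trans_lt h3.1
  have h5' := (Complex.abs_im_le_norm _).trans_lt h3.2
  have h4'' := (abs_lt.1 h4').2
  have h5'' := (abs_lt.1 h5').1
  have e1 : (y - top L z).1.im = y.1.im - z.1.im + L := by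
    unfold top; simp; ring
  have e2 : (y - top L z).2.im = y.2.im - z.2.im - L := by
    unfold top; simp; ring
  rw [e1] at h4''
  rw [e2] at h5''
  refine ⟨by linarith, by linarith, ?_⟩
  calc dist y p ≤ dist y (top L z) + dist (top L z) z + dist z p := dist_triangle4 _ _ _ _
    _ < (L + d) + L + X := by
        have h6 : dist (top L z) z = L := by
          rw [dist_comm, dist_eq_norm, norm_top_sub hL]
        rw [h6]
        rw [mem_ball] at hy
        linarith
    _ ≤ Y := by linarith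

/-- one descent from the top point -/
theorem desc {θ : ℂ × ℂ → ℂ} {p z : ℂ × ℂ} {H X ρ om : ℝ} (hX : 1 ≤ X) (hρ : 0 < ρ)
    (hom : 0 < om) (hom1 : om ≤ 1)
    (hz1 : om * ρ ≤ -z.1.im) (hz2 : om * ρ ≤ z.2.im) (hz : dist z p ≤ X * ρ)
    (hθ : DifferentiableOn ℂ θ (QT 0 p (10 * X * ρ)))
    (hs : ∀ y ∈ QT 0 p (10 * X * ρ), |(θ y).im| < H) :
    om * (H - |(θ (top (4 * X * ρ) z)).im|) ≤ 9 * X * (H - |(θ z).im|) ∧
      om * (H - |(θ z).im|) ≤ 9 * X * (H - |(θ (top (4 * X * ρ) z)).im|) ∧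
      ‖θ z - θ (top (4 * X * ρ) z)‖ ≤ 16 * X * H / om ∧
      ball (top (4 * X * ρ) z) (4 * X * ρ) ⊆ QT 0 p (10 * X * ρ) ∧ z ∈ QT 0 p (10 * X * ρ) ∧
      0 < H := by
  set L : ℝ := 4 * X * ρ with hL
  have hL0 : 0 < L := by positivity
  have hXρ : ρ ≤ X * ρ := by nlinarith
  have homρ : om * ρ ≤ ρ := by nlinarith
  have p1 : 0 < om * ρ := by positivity
  have hsz : ball (top L z) (L + om * ρ) ⊆ QT 0 p (10 * X * ρ) :=
    ball_top_sub hL0.le hz1 hz2 hz (by rw [hL]; linarith)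
  have nz : ‖z - top L z‖ = L := norm_top_sub hL0.le z
  have mz : z ∈ ball (top L z) (L + om * ρ) := by
    rw [mem_ball, dist_eq_norm, nz]
    linarith
  have mtz : top L z ∈ ball (top L z) (L + om * ρ) := mem_ball_self (by positivity)
  have hH : 0 < H := (abs_nonneg _).trans_lt (hs _ (hsz mz))
  obtain ⟨s1, s2⟩ := wall_ball (c := top L z) (z := z) (R := L + om * ρ) (H := H) (hθ.mono hsz)
    (fun y hy => hs y (hsz hy)) (by rw [nz]; linarith)
  have t1 := move_ball (c := top L z) (z := z) (R := L + om * ρ) (H := H) (hθ.mono hsz)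
    (fun y hy => hs y (hsz hy)) (by rw [nz]; linarith)
  rw [nz] at s1 s2 t1
  have φz : 0 < H - |(θ z).im| := by linarith [hs _ (hsz mz)]
  have φtz : 0 < H - |(θ (top L z)).im| := by linarith [hs _ (hsz mtz)]
  have aux : ∀ x y : ℝ, 0 < y → (L + om * ρ - L) * x ≤ (L + om * ρ + L) * y →
      om * x ≤ 9 * X * y := by
    intro x y hy h
    have h1 : ρ * (om * x) ≤ ρ * (9 * X * y) := by
      calc ρ * (om * x) = (L + om * ρ - L) * x := by ring
        _ ≤ (L + om * ρ + L) * y := h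
        _ ≤ (9 * (X * ρ)) * y := by
            apply mul_le_mul_of_nonneg_right _ hy.le
            rw [hL]; linarith
        _ = ρ * (9 * X * y) := by ring
    exact le_of_mul_le_mul_left h1 hρ
  refine ⟨aux _ _ φz s1, aux _ _ φtz s2, ?_, (ball_subset_ball (by linarith)).trans hsz, hsz mz, hH⟩
  refine t1.trans (le_of_eq ?_)
  rw [hL, show 4 * X * ρ + om * ρ - 4 * X * ρ = om * ρ by ring]
  field_simp
  ring

/-- between two top points -/
theorem lat {θ : ℂ × ℂ → ℂ} {p b z : ℂ × ℂ} {H X ρ : ℝ} (hX : 1 ≤ X) (hρ : 0 < ρ)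
    (hb : dist b p ≤ X * ρ) (hz : dist z p ≤ X * ρ)
    (hsb : ball (top (4 * X * ρ) b) (4 * X * ρ) ⊆ QT 0 p (10 * X * ρ))
    (hθ : DifferentiableOn ℂ θ (QT 0 p (10 * X * ρ)))
    (hs : ∀ y ∈ QT 0 p (10 * X * ρ), |(θ y).im| < H) :
    H - |(θ (top (4 * X * ρ) b)).im| ≤ 3 * (H - |(θ (top (4 * X * ρ) z)).im|) ∧
      ‖θ (top (4 * X * ρ) z) - θ (top (4 * X * ρ) b)‖ ≤ 4 * H := by
  set L : ℝ := 4 * X * ρ with hL
  have hXr : 0 < X * ρ := by positivity
  have hL0 : 0 < L := by positivity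
  have hzb : ‖top L z - top L b‖ ≤ 2 * X * ρ := by
    rw [top_sub_top, ← dist_eq_norm]
    calc dist z b ≤ dist z p + dist b p := dist_triangle_right _ _ _
      _ ≤ 2 * X * ρ := by linarith
  set d := ‖top L z - top L b‖ with hd
  have hd0 : 0 ≤ d := norm_nonneg _
  have hdL : d < L := by rw [hL]; linarith
  have s2 := (wall_ball (c := top L b) (z := top L z) (R := L) (H := H) (hθ.mono hsb)
    (fun y hy => hs y (hsb hy)) hdL).1
  have t2 := move_ball (c := top L b) (z := top L z) (R := L) (H := H) (hθ.mono hsb)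
    (fun y hy => hs y (hsb hy)) hdL
  have mtb : top L b ∈ ball (top L b) L := mem_ball_self hL0
  have mtz : top L z ∈ ball (top L b) L := by rw [mem_ball, dist_eq_norm]; exact hdL
  have φtz : 0 < H - |(θ (top L z)).im| := by linarith [hs _ (hsb mtz)]
  have φtb : 0 < H - |(θ (top L b)).im| := by linarith [hs _ (hsb mtb)]
  have hH : 0 < H := (abs_nonneg _).trans_lt (hs _ (hsb mtb))
  rw [← hd] at s2 t2
  constructor
  · have h1 : (2 * (X * ρ)) * (H - |(θ (top L b)).im|) ≤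
        (2 * (X * ρ)) * (3 * (H - |(θ (top L z)).im|)) := by
      calc (2 * (X * ρ)) * (H - |(θ (top L b)).im|) ≤ (L - d) * (H - |(θ (top L b)).im|) := by
            apply mul_le_mul_of_nonneg_right _ φtb.le
            rw [hL]; linarith
        _ ≤ (L + d) * (H - |(θ (top L z)).im|) := s2
        _ ≤ (6 * (X * ρ)) * (H - |(θ (top L z)).im|) := by
            apply mul_le_mul_of_nonneg_right _ φtz.le
            rw [hL]; linarith
        _ = (2 * (X * ρ)) * (3 * (H - |(θ (top L z)).im|)) := by ring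
    exact le_of_mul_le_mul_left h1 (by positivity)
  · refine t2.trans ?_
    rw [div_le_iff₀ (by linarith)]
    have h1 : d ≤ L - d := by rw [hL]; linarith
    nlinarith

/-- **the distance to the walls is linear in the relative depth** (a base point `b` of relative
depth `om0`, any point `z` of relative depth `om`), and the displacement -/
theorem wall_quad {θ : ℂ × ℂ → ℂ} {p b z : ℂ × ℂ} {H X ρ om om0 : ℝ} (hX : 1 ≤ X) (hρ : 0 < ρ)
    (hom : 0 < om) (hom1 : om ≤ 1) (hom0 : 0 < om0) (hom01 : om0 ≤ 1)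
    (hb1 : om0 * ρ ≤ -b.1.im) (hb2 : om0 * ρ ≤ b.2.im) (hb : dist b p ≤ X * ρ)
    (hz1 : om * ρ ≤ -z.1.im) (hz2 : om * ρ ≤ z.2.im) (hz : dist z p ≤ X * ρ)
    (hθ : DifferentiableOn ℂ θ (QT 0 p (10 * X * ρ)))
    (hs : ∀ y ∈ QT 0 p (10 * X * ρ), |(θ y).im| < H) :
    om * om0 * (H - |(θ b).im|) ≤ 243 * X ^ 2 * (H - |(θ z).im|) ∧
      ‖θ z - θ b‖ ≤ 36 * X * H / (om * om0) := by
  obtain ⟨a1, a2, a3, a4, a5, hH⟩ := desc hX hρ hom hom1 hz1 hz2 hz hθ hs
  obtain ⟨b1, b2, b3, b4, b5, _⟩ := desc hX hρ hom0 hom01 hb1 hb2 hb hθ hs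
  obtain ⟨c1, c2⟩ := lat hX hρ hb hz b4 hθ hs
  have φz : 0 < H - |(θ z).im| := by linarith [hs _ a5]
  have φb : 0 < H - |(θ b).im| := by linarith [hs _ b5]
  set tz := top (4 * X * ρ) z
  set tb := top (4 * X * ρ) b
  have hX0 : 0 < X := by linarith
  constructor
  · calc om * om0 * (H - |(θ b).im|) = om * (om0 * (H - |(θ b).im|)) := by ring
      _ ≤ om * (9 * X * (H - |(θ tb).im|)) := by gcongr
      _ ≤ om * (9 * X * (3 * (H - |(θ tz).im|))) := by gcongr
      _ = 27 * X * (om * (H - |(θ tz).im|)) := by ring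
      _ ≤ 27 * X * (9 * X * (H - |(θ z).im|)) := by gcongr
      _ = 243 * X ^ 2 * (H - |(θ z).im|) := by ring
  · have hoo : 1 / om ≤ 1 / (om * om0) := by
      apply div_le_div_of_nonneg_left one_pos.le (by positivity)
      nlinarith
    have hoo0 : 1 / om0 ≤ 1 / (om * om0) := by
      apply div_le_div_of_nonneg_left one_pos.le (by positivity)
      nlinarith
    have hoo1 : 1 ≤ 1 / (om * om0) := by
      rw [le_div_iff₀ (by positivity), one_mul]
      nlinarith
    have q1 : 16 * X * H / om ≤ 16 * X * H * (1 / (om * om0)) := by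
      rw [div_eq_mul_one_div]
      gcongr
    have q3 : 16 * X * H / om0 ≤ 16 * X * H * (1 / (om * om0)) := by
      rw [div_eq_mul_one_div]
      gcongr
    have q2 : 4 * H ≤ 4 * X * H * (1 / (om * om0)) := by
      calc 4 * H = 4 * 1 * H * 1 := by ring
        _ ≤ 4 * X * H * (1 / (om * om0)) := by gcongr
    calc ‖θ z - θ b‖ ≤ ‖θ z - θ tz‖ + ‖θ tz - θ b‖ := norm_sub_le_norm_sub_add_norm_sub _ _ _
      _ ≤ ‖θ z - θ tz‖ + (‖θ tz - θ tb‖ + ‖θ tb - θ b‖) := by
          gcongr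
          exact norm_sub_le_norm_sub_add_norm_sub _ _ _
      _ ≤ 16 * X * H / om + (4 * H + 16 * X * H / om0) := by
          rw [norm_sub_rev (θ tb)]
          gcongr
      _ ≤ 16 * X * H * (1 / (om * om0)) + (4 * X * H * (1 / (om * om0)) +
          16 * X * H * (1 / (om * om0))) := by gcongr
      _ = 36 * X * H / (om * om0) := by ring

end Vale.Agent.P097.H983
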