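import Vale.Agent.P097.H983.Low0

/-!
# P097 / case [c] / W-OCT: lower bounds and signs along the Schottky chain with R2 points, paths
(the proofs follow `H881/Sc3`, `H881/Quad`)
-/

set_option linter.all false

open Complex Metric Filter Topology Set

namespace Vale.Agent.P097.H983

open Vale.Agent.P097.H264 Vale.Agent.P097.H881

variable {E : Type*} [NormedAddCommGroup E] [NormedSpace ℂ E]

/-- **paths in unit speed** -/
theorem JL.path_unit {U : Set E} {γ : ℝ → E} {R : ℝ → ℝ} {T : ℝ} (hT : 0 ≤ T)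
    (hR : ∀ s ∈ Icc 0 T, 0 < R s) (hU : ∀ s ∈ Icc 0 T, ball (γ s) (R s) ⊆ U)
    (hRR : ∀ s ∈ Icc 0 T, ∀ s' ∈ Icc s T, s' ≤ s + 1 → R s ≤ 2 * R s')
    (hγ : ∀ s ∈ Icc 0 T, ∀ s' ∈ Icc s T, s' ≤ s + 1 → ‖γ s' - γ s‖ ≤ R s / 80) :
    JL U (KR ^ (T + 1)) (γ 0) (R 0 / 80) (γ T) (R T / 80) := by
  have hKR := KR_one
  have hcb : closedBall (γ 0) (R 0 / 80) ⊆ U := by
    have h0 := hR 0 ⟨le_rfl, hT⟩
    exact (closedBall_subset_ball (by linarith)).trans (hU 0 ⟨le_rfl, hT⟩)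
  have key : ∀ n : ℕ, (n : ℝ) ≤ T → JL U (KR ^ (n : ℝ)) (γ 0) (R 0 / 80) (γ n) (R n / 80) := by
    intro n
    induction n with
    | zero => intro _; simpa using JL.refl U (γ 0) (R 0 / 80)
    | succ m ih =>
      intro hm
      push_cast at hm ⊢
      have hmT : (m : ℝ) ≤ T := by linarith
      have hmem : (m : ℝ) ∈ Icc 0 T := ⟨by positivity, hmT⟩
      have h1 := JL.one_step (hR _ hmem) (hRR m hmem (m + 1) ⟨by linarith, hm⟩ le_rfl) (hU _ hmem)
        (hγ m hmem (m + 1) ⟨by linarith, hm⟩ le_rfl)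
      have h2 := (ih hmT).trans h1 hKR (Real.one_le_rpow hKR (by positivity)) hcb
      rwa [Real.rpow_add_one (by linarith)]
  have hn := Nat.floor_le hT
  have hmem : ((⌊T⌋₊ : ℕ) : ℝ) ∈ Icc 0 T := ⟨by positivity, hn⟩
  have h1 := JL.one_step (hR _ hmem) (hRR _ hmem T ⟨hn, le_rfl⟩ (Nat.lt_floor_add_one T).le)
    (hU _ hmem) (hγ _ hmem T ⟨hn, le_rfl⟩ (Nat.lt_floor_add_one T).le)
  have h2 := (key _ hn).trans h1 hKR (Real.one_le_rpow hKR (by positivity)) hcb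
  refine h2.mono ?_ hcb (one_le_mul_of_one_le_of_one_le (Real.one_le_rpow hKR (by positivity)) hKR)
  rw [← Real.rpow_add_one (by linarith)]
  exact Real.rpow_le_rpow_of_exponent_le hKR (by linarith)

/-- going up -/
theorem JL.path_up {U : Set E} {γ : ℝ → E} {a b c : ℝ} (ha : 0 < a) (hab : a ≤ b) (hc : 0 < c)
    (hγ : ∀ s ∈ Icc a b, ∀ t ∈ Icc a b, ‖γ t - γ s‖ ≤ |t - s|)
    (hU : ∀ t ∈ Icc a b, ball (γ t) (c * t) ⊆ U) :
    JL U (KR * (b / a) ^ pR c) (γ a) (c * a / 80) (γ b) (c * b / 80) := by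
  have hq : 1 < 1 + c / 80 := by linarith
  have hlq : 0 < Real.log (1 + c / 80) := Real.log_pos hq
  have hba : 1 ≤ b / a := by rw [le_div_iff₀ ha]; linarith
  set T := Real.log (b / a) / Real.log (1 + c / 80) with hT
  have hT0 : 0 ≤ T := by
    have := Real.log_nonneg hba
    positivity
  have hqT : (1 + c / 80) ^ T = b / a := by
    rw [Real.rpow_def_of_pos (by linarith), hT, mul_div_cancel₀ _ hlq.ne', Real.exp_log (by positivity)]
  have hmem : ∀ s ∈ Icc 0 T, a * (1 + c / 80) ^ s ∈ Icc a b := by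
    intro s hs
    constructor
    · have := Real.one_le_rpow hq.le hs.1
      nlinarith
    · have h1 : (1 + c / 80) ^ s ≤ b / a := by
        rw [← hqT]; exact Real.rpow_le_rpow_of_exponent_le hq.le hs.2
      rw [le_div_iff₀ ha] at h1
      linarith
  have h := JL.path_unit (U := U) (γ := fun s => γ (a * (1 + c / 80) ^ s))
    (R := fun s => c * (a * (1 + c / 80) ^ s)) hT0 (fun s _ => by positivity)
    (fun s hs => hU _ (hmem s hs)) ?_ ?_
  · simp only [Real.rpow_zero, mul_one, hqT] at h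
    rw [mul_div_cancel₀ _ ha.ne', hT, KR_pow_log (by positivity)] at h
    exact h
  · intro s hs s' hs' hss
    have h1 : (1 + c / 80) ^ s ≤ (1 + c / 80) ^ s' := Real.rpow_le_rpow_of_exponent_le hq.le hs'.1
    have h3 : 0 < (1 + c / 80) ^ s := by positivity
    have h4 : c * (a * (1 + c / 80) ^ s) ≤ c * (a * (1 + c / 80) ^ s') := by gcongr
    have h5 : 0 < c * (a * (1 + c / 80) ^ s) := by positivity
    linarith
  · intro s hs s' hs' hss
    have hs'' : s' ∈ Icc 0 T := ⟨hs.1.trans hs'.1, hs'.2⟩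
    refine (hγ _ (hmem s hs) _ (hmem s' hs'')).trans ?_
    have h1 : (1 + c / 80) ^ s ≤ (1 + c / 80) ^ s' := Real.rpow_le_rpow_of_exponent_le hq.le hs'.1
    have h2 : (1 + c / 80) ^ s' ≤ (1 + c / 80) ^ s * (1 + c / 80) := by
      rw [← Real.rpow_add_one (by linarith)]
      exact Real.rpow_le_rpow_of_exponent_le hq.le hss
    have h3 : 0 < (1 + c / 80) ^ s := by positivity
    rw [← mul_sub, abs_mul, abs_of_pos ha, abs_of_nonneg (by linarith)]
    calc a * ((1 + c / 80) ^ s' - (1 + c / 80) ^ s)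
        ≤ a * ((1 + c / 80) ^ s * (1 + c / 80) - (1 + c / 80) ^ s) := by gcongr
      _ = c * (a * (1 + c / 80) ^ s) / 80 := by ring

/-- going down (`c ≤ 80`) -/
theorem JL.path_down {U : Set E} {γ : ℝ → E} {a b c : ℝ} (ha : 0 < a) (hab : a ≤ b) (hc : 0 < c)
    (hc80 : c ≤ 80) (hγ : ∀ s ∈ Icc a b, ∀ t ∈ Icc a b, ‖γ t - γ s‖ ≤ |t - s|)
    (hU : ∀ t ∈ Icc a b, ball (γ t) (c * t) ⊆ U) :
    JL U (KR * (b / a) ^ pR c) (γ b) (c * b / 80) (γ a) (c * a / 80) := by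
  have hq : 1 < 1 + c / 80 := by linarith
  have hq0 : (0 : ℝ) < 1 + c / 80 := by linarith
  have hlq : 0 < Real.log (1 + c / 80) := Real.log_pos hq
  have hb : 0 < b := by linarith
  have hba : 1 ≤ b / a := by rw [le_div_iff₀ ha]; linarith
  set T := Real.log (b / a) / Real.log (1 + c / 80) with hT
  have hT0 : 0 ≤ T := by
    have := Real.log_nonneg hba
    positivity
  have hqT : (1 + c / 80) ^ (-T) = a / b := by
    rw [Real.rpow_neg hq0.le, Real.rpow_def_of_pos hq0, hT, mul_div_cancel₀ _ hlq.ne',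
      Real.exp_log (by positivity), inv_div]
  have hmem : ∀ s ∈ Icc 0 T, b * (1 + c / 80) ^ (-s) ∈ Icc a b := by
    intro s hs
    constructor
    · have h1 : a / b ≤ (1 + c / 80) ^ (-s) := by
        rw [← hqT]; exact Real.rpow_le_rpow_of_exponent_le hq.le (by linarith [hs.2])
      rw [div_le_iff₀ hb] at h1
      linarith
    · have h1 : (1 + c / 80) ^ (-s) ≤ 1 :=
        Real.rpow_le_one_of_one_le_of_nonpos hq.le (by linarith [hs.1])
      nlinarith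
  have hstep : ∀ s s' : ℝ, s' ≤ s + 1 →
      (1 + c / 80) ^ (-s) ≤ (1 + c / 80) ^ (-s') * (1 + c / 80) := by
    intro s s' hss
    rw [← Real.rpow_add_one hq0.ne']
    exact Real.rpow_le_rpow_of_exponent_le hq.le (by linarith)
  have h := JL.path_unit (U := U) (γ := fun s => γ (b * (1 + c / 80) ^ (-s)))
    (R := fun s => c * (b * (1 + c / 80) ^ (-s))) hT0 (fun s _ => by positivity)
    (fun s hs => hU _ (hmem s hs)) ?_ ?_
  · simp only [neg_zero, Real.rpow_zero, mul_one, hqT] at h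
    rw [mul_div_cancel₀ _ hb.ne', hT, KR_pow_log (by positivity)] at h
    exact h
  · intro s hs s' hs' hss
    have h2 := hstep s s' hss
    have h3 : 0 < (1 + c / 80) ^ (-s') := by positivity
    have h4 : (1 + c / 80) ^ (-s) ≤ 2 * (1 + c / 80) ^ (-s') := by nlinarith
    calc c * (b * (1 + c / 80) ^ (-s)) ≤ c * (b * (2 * (1 + c / 80) ^ (-s'))) := by gcongr
      _ = 2 * (c * (b * (1 + c / 80) ^ (-s'))) := by ring
  · intro s hs s' hs' hss
    have hs'' : s' ∈ Icc 0 T := ⟨hs.1.trans hs'.1, hs'.2⟩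
    refine (hγ _ (hmem s hs) _ (hmem s' hs'')).trans ?_
    have h1 : (1 + c / 80) ^ (-s') ≤ (1 + c / 80) ^ (-s) :=
      Real.rpow_le_rpow_of_exponent_le hq.le (by linarith [hs'.1])
    have h2 := hstep s s' hss
    have h3 : 0 < (1 + c / 80) ^ (-s') := by positivity
    rw [← mul_sub, abs_mul, abs_of_pos hb, abs_of_nonpos (by linarith), neg_sub]
    have h4 : (1 + c / 80) ^ (-s) - (1 + c / 80) ^ (-s') ≤ c / 80 * (1 + c / 80) ^ (-s) := by
      nlinarith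
    calc b * ((1 + c / 80) ^ (-s) - (1 + c / 80) ^ (-s'))
        ≤ b * (c / 80 * (1 + c / 80) ^ (-s)) := by gcongr
      _ = c * (b * (1 + c / 80) ^ (-s)) / 80 := by ring

/-- straight segments with a tube of radius `R` -/
theorem JL.path_seg {U : Set E} {z w : E} {R : ℝ} (hR : 0 < R)
    (hU : ∀ t ∈ Icc (0 : ℝ) 1, ball (z + (t : ℂ) • (w - z)) R ⊆ U) :
    JL U (KR ^ (80 * ‖w - z‖ / R + 1)) z (R / 80) w (R / 80) := by
  have hKR := KR_one
  have hcb : closedBall z (R / 80) ⊆ U := by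
    have h0 := hU 0 ⟨le_rfl, zero_le_one⟩
    rw [Complex.ofReal_zero, zero_smul, add_zero] at h0
    exact (closedBall_subset_ball (by linarith)).trans h0
  rcases eq_or_lt_of_le (norm_nonneg (w - z)) with h0 | h0
  · have hzw : w = z := by
      rw [← sub_eq_zero]; exact norm_eq_zero.mp h0.symm
    subst hzw
    refine (JL.refl U w (R / 80)).mono ?_ hcb le_rfl
    rw [← h0]
    simp [hKR]
  set T := 80 * ‖w - z‖ / R with hT
  have hT0 : 0 < T := by positivity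
  have h := JL.path_unit (U := U) (γ := fun s : ℝ => z + ((s / T : ℝ) : ℂ) • (w - z))
    (R := fun _ => R) hT0.le (fun _ _ => hR)
    (fun s hs => hU _ ⟨by have := hs.1; positivity, by rw [div_le_one hT0]; exact hs.2⟩)
    (fun _ _ _ _ _ => by linarith) ?_
  · simpa [hT0.ne'] using h
  · intro s hs s' hs' hss
    have h1 : z + ((s' / T : ℝ) : ℂ) • (w - z) - (z + ((s / T : ℝ) : ℂ) • (w - z)) =
        (((s' - s) / T : ℝ) : ℂ) • (w - z) := by
      rw [add_sub_add_left_eq_sub, ← sub_smul]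
      congr 1
      push_cast
      ring
    rw [h1, norm_smul, Complex.norm_real, Real.norm_eq_abs, abs_div, abs_of_pos hT0,
      abs_of_nonneg (by linarith [hs'.1])]
    have h2 : s' - s ≤ 1 := by linarith
    calc (s' - s) / T * ‖w - z‖ ≤ 1 / T * ‖w - z‖ := by gcongr
      _ = R / 80 := by rw [hT]; field_simp

/-- down in the quadrant tube -/
theorem quadL_down {z p : ℂ × ℂ} {X ω ρ : ℝ} (hω : 0 < ω) (hω1 : ω ≤ 1) (hρ : 0 < ρ)
    (h1 : ω * ρ ≤ -z.1.im) (h2 : ω * ρ ≤ z.2.im) (hz : dist z p ≤ X * ρ) :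
    JL (QT (ω * ρ / 2) p ((X + 2) * ρ)) (KR * (1 / ω) ^ pR (1 / 2)) (lift z ρ) (ρ / 160)
      z (ω * ρ / 160) := by
  have hωρ : 0 < ω * ρ := by positivity
  have hle : ω * ρ ≤ ρ := by nlinarith
  have h := JL.path_down (U := QT (ω * ρ / 2) p ((X + 2) * ρ)) (γ := H881.lift z) (a := ω * ρ) (b := ρ)
    (c := 1 / 2) hωρ hle (by norm_num) (by norm_num)
    (fun s _ t _ => norm_lift_sub z s t) (fun t ht => ball_lift hωρ.le h1 h2 hz ht hρ)
  rw [lift_self h1 h2] at h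
  have e1 : ρ / (ω * ρ) = 1 / ω := by field_simp
  rw [e1] at h
  exact h.mono_radius (by linarith) (by linarith)

/-- up in the quadrant tube -/
theorem quadL_up {z p : ℂ × ℂ} {X ω ρ : ℝ} (hω : 0 < ω) (hω1 : ω ≤ 1) (hρ : 0 < ρ)
    (h1 : ω * ρ ≤ -z.1.im) (h2 : ω * ρ ≤ z.2.im) (hz : dist z p ≤ X * ρ) :
    JL (QT (ω * ρ / 2) p ((X + 2) * ρ)) (KR * (1 / ω) ^ pR (1 / 2)) z (ω * ρ / 160)
      (lift z ρ) (ρ / 160) := by
  have hωρ : 0 < ω * ρ := by positivity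
  have hle : ω * ρ ≤ ρ := by nlinarith
  have h := JL.path_up (U := QT (ω * ρ / 2) p ((X + 2) * ρ)) (γ := H881.lift z) (a := ω * ρ) (b := ρ)
    (c := 1 / 2) hωρ hle (by norm_num)
    (fun s _ t _ => norm_lift_sub z s t) (fun t ht => ball_lift hωρ.le h1 h2 hz ht hρ)
  rw [lift_self h1 h2] at h
  have e1 : ρ / (ω * ρ) = 1 / ω := by field_simp
  rw [e1] at h
  exact h.mono_radius (by linarith) (by linarith)

/-- the segment at height `ρ` -/
theorem quadL_seg {b z p : ℂ × ℂ} {X ω₀ ω ρ : ℝ} (hω₀ : 0 < ω₀) (hω₀1 : ω₀ ≤ 1) (hω : 0 < ω)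
    (hω1 : ω ≤ 1) (hρ : 0 < ρ) (hX : 0 ≤ X)
    (b1 : ω₀ * ρ ≤ -b.1.im) (b2 : ω₀ * ρ ≤ b.2.im) (hb : dist b p ≤ X * ρ)
    (h1 : ω * ρ ≤ -z.1.im) (h2 : ω * ρ ≤ z.2.im) (hz : dist z p ≤ X * ρ) :
    JL (QT (ρ / 2) p ((X + 2) * ρ)) (KR ^ (320 * X + 321)) (lift b ρ) (ρ / 160)
      (lift z ρ) (ρ / 160) := by
  have hlb := dist_lift (by positivity) b1 b2 (by nlinarith : ω₀ * ρ ≤ ρ)
  have hlz := dist_lift (by positivity) h1 h2 (by nlinarith : ω * ρ ≤ ρ)
  have hKR := KR_one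
  have hsub : ∀ t ∈ Icc (0 : ℝ) 1, ball (lift b ρ + (t : ℂ) • (lift z ρ - lift b ρ)) (ρ / 2) ⊆
      QT (ρ / 2) p ((X + 2) * ρ) := by
    intro t ht y hy
    rw [mem_ball, dist_eq_norm] at hy
    set c : ℂ × ℂ := lift b ρ + (t : ℂ) • (lift z ρ - lift b ρ) with hc
    have hy1 : ‖y.1 - c.1‖ < ρ / 2 := (norm_fst_le (y - c)).trans_lt hy
    have hy2 : ‖y.2 - c.2‖ < ρ / 2 := (norm_snd_le (y - c)).trans_lt hy
    have hi1 := (Complex.abs_im_le_norm (y.1 - c.1)).trans_lt hy1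
    have hi2 := (Complex.abs_im_le_norm (y.2 - c.2)).trans_lt hy2
    rw [Complex.sub_im, abs_lt] at hi1 hi2
    have e1 : c.1.im = -max ρ (-b.1.im) + t * (-max ρ (-z.1.im) - -max ρ (-b.1.im)) := by
      rw [hc]
      simp [H881.lift]
    have e2 : c.2.im = max ρ b.2.im + t * (max ρ z.2.im - max ρ b.2.im) := by
      rw [hc]
      simp [H881.lift]
    have m1 := le_max_left ρ (-b.1.im)
    have m2 := le_max_left ρ (-z.1.im)
    have m3 := le_max_left ρ b.2.im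
    have m4 := le_max_left ρ z.2.im
    have hc1 : c.1.im ≤ -ρ := by
      rw [e1]
      nlinarith [ht.1, ht.2]
    have hc2 : ρ ≤ c.2.im := by
      rw [e2]
      nlinarith [ht.1, ht.2]
    refine ⟨by linarith, by linarith, ?_⟩
    have hcp : ‖c - p‖ ≤ (X + 1) * ρ := by
      have h3 : c - p = ((1 - t : ℝ) : ℂ) • (lift b ρ - p) + (t : ℂ) • (lift z ρ - p) := by
        rw [hc, Complex.ofReal_sub, Complex.ofReal_one]
        module
      rw [h3]
      have h4 : ‖lift b ρ - p‖ ≤ (X + 1) * ρ := by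
        have := norm_sub_le_norm_sub_add_norm_sub (lift b ρ) b p
        rw [← dist_eq_norm b p] at this
        linarith
      have h5 : ‖lift z ρ - p‖ ≤ (X + 1) * ρ := by
        have := norm_sub_le_norm_sub_add_norm_sub (lift z ρ) z p
        rw [← dist_eq_norm z p] at this
        linarith
      calc ‖((1 - t : ℝ) : ℂ) • (lift b ρ - p) + (t : ℂ) • (lift z ρ - p)‖
          ≤ ‖((1 - t : ℝ) : ℂ) • (lift b ρ - p)‖ + ‖(t : ℂ) • (lift z ρ - p)‖ := norm_add_le _ _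
        _ = (1 - t) * ‖lift b ρ - p‖ + t * ‖lift z ρ - p‖ := by
          rw [norm_smul, norm_smul, Complex.norm_real, Complex.norm_real, Real.norm_eq_abs,
            Real.norm_eq_abs, abs_of_nonneg (by linarith [ht.2]), abs_of_nonneg ht.1]
        _ ≤ (1 - t) * ((X + 1) * ρ) + t * ((X + 1) * ρ) := by
          have := ht.1
          have := ht.2
          gcongr
        _ = (X + 1) * ρ := by ring
    have hd : dist y p ≤ ‖y - c‖ + ‖c - p‖ := by
      rw [dist_eq_norm]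
      exact norm_sub_le_norm_sub_add_norm_sub _ _ _
    linarith
  have h := JL.path_seg (U := QT (ρ / 2) p ((X + 2) * ρ)) (z := lift b ρ) (w := lift z ρ)
    (R := ρ / 2) (by positivity) hsub
  have hnorm : ‖lift z ρ - lift b ρ‖ ≤ (2 * X + 2) * ρ := by
    have e : lift z ρ - lift b ρ = (lift z ρ - z) + (z - p) + (p - b) + (b - lift b ρ) := by abel
    rw [e]
    have t1 := norm_add_le ((lift z ρ - z) + (z - p) + (p - b)) (b - lift b ρ)
    have t2 := norm_add_le ((lift z ρ - z) + (z - p)) (p - b)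
    have t3 := norm_add_le (lift z ρ - z) (z - p)
    rw [← dist_eq_norm z p] at t3
    rw [norm_sub_rev p b, ← dist_eq_norm b p] at t2
    rw [norm_sub_rev b (lift b ρ)] at t1
    linarith
  have hcb : closedBall (lift b ρ) (ρ / 2 / 80) ⊆ QT (ρ / 2) p ((X + 2) * ρ) := by
    have h0 := hsub 0 ⟨le_rfl, zero_le_one⟩
    rw [Complex.ofReal_zero, zero_smul, add_zero] at h0
    exact (closedBall_subset_ball (by linarith)).trans h0
  refine (h.mono ?_ hcb (Real.one_le_rpow hKR (by positivity))).mono_radius (by linarith) (by linarith)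
  refine Real.rpow_le_rpow_of_exponent_le hKR ?_
  have h6 : 80 * ‖lift z ρ - lift b ρ‖ / (ρ / 2) ≤ 320 * X + 320 := by
    rw [div_le_iff₀ (by positivity)]
    nlinarith
  linarith

/-- **the chain in the quadrant tube**: from `b` (relative depth `ω₀`) to `z` (relative depth
`ω`), both within `X ρ` of `p` -/
theorem quadL_chain {b z p : ℂ × ℂ} {X ω₀ ω ρ : ℝ} (hω₀ : 0 < ω₀) (hω₀1 : ω₀ ≤ 1) (hω : 0 < ω)
    (hω1 : ω ≤ 1) (hρ : 0 < ρ) (hX : 0 ≤ X)
    (b1 : ω₀ * ρ ≤ -b.1.im) (b2 : ω₀ * ρ ≤ b.2.im) (hb : dist b p ≤ X * ρ)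
    (h1 : ω * ρ ≤ -z.1.im) (h2 : ω * ρ ≤ z.2.im) (hz : dist z p ≤ X * ρ) :
    JL (QT (min ω₀ ω * ρ / 2) p ((X + 2) * ρ)) (AQ X ω₀ ω) b (ω₀ * ρ / 160)
      z (ω * ρ / 160) := by
  have hKR := KR_one
  have hp : 0 ≤ pR (1 / 2) := pR_nonneg (by norm_num)
  have h2' : 1 ≤ (1 / ω₀) ^ pR (1 / 2) :=
    Real.one_le_rpow (by rw [le_div_iff₀ hω₀]; linarith) hp
  have h3' : 1 ≤ (1 / ω) ^ pR (1 / 2) := Real.one_le_rpow (by rw [le_div_iff₀ hω]; linarith) hp
  have hle1 : min ω₀ ω * ρ / 2 ≤ ω₀ * ρ / 2 := by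
    have := min_le_left ω₀ ω
    gcongr
  have hle2 : min ω₀ ω * ρ / 2 ≤ ω * ρ / 2 := by
    have := min_le_right ω₀ ω
    gcongr
  have hle3 : min ω₀ ω * ρ / 2 ≤ ρ / 2 := by
    have h := min_le_right ω₀ ω
    have : min ω₀ ω * ρ ≤ 1 * ρ := by gcongr; exact h.trans hω1
    linarith
  have u1 := (quadL_up hω₀ hω₀1 hρ b1 b2 hb).mono_set (QT_mono hle1 (le_refl ((X + 2) * ρ)))
  have u2 := (quadL_seg hω₀ hω₀1 hω hω1 hρ hX b1 b2 hb h1 h2 hz).mono_set
    (QT_mono hle3 (le_refl ((X + 2) * ρ)))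
  have u3 := (quadL_down hω hω1 hρ h1 h2 hz).mono_set (QT_mono hle2 (le_refl ((X + 2) * ρ)))
  have hω₀ρ : 0 < ω₀ * ρ := by positivity
  have hle' : ω₀ * ρ ≤ ρ := by nlinarith
  have hcb : closedBall b (ω₀ * ρ / 160) ⊆ QT (min ω₀ ω * ρ / 2) p ((X + 2) * ρ) := by
    have h3 := ball_lift hω₀ρ.le b1 b2 hb (t := ω₀ * ρ) ⟨le_rfl, hle'⟩ hρ
    rw [lift_self b1 b2] at h3
    exact (closedBall_subset_ball (by linarith)).trans (h3.trans (QT_mono hle1 le_rfl))
  have w1 : 1 ≤ KR * (1 / ω₀) ^ pR (1 / 2) := one_le_mul_of_one_le_of_one_le hKR h2'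
  have w2 : 1 ≤ KR ^ (320 * X + 321) := Real.one_le_rpow hKR (by linarith)
  have h4 := (u1.trans u2 w2 w1 hcb).trans u3
    (one_le_mul_of_one_le_of_one_le hKR h3') (one_le_mul_of_one_le_of_one_le w1 w2) hcb
  have h5 : KR * (1 / ω₀) ^ pR (1 / 2) * KR ^ (320 * X + 321) * (KR * (1 / ω) ^ pR (1 / 2)) =
      AQ X ω₀ ω := by
    have h6 : KR ^ (320 * X + 323) = KR ^ (320 * X + 321) * KR * KR := by
      have : 320 * X + 323 = 320 * X + 321 + 1 + 1 := by ring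
      rw [this, Real.rpow_add_one (by linarith), Real.rpow_add_one (by linarith)]
    unfold AQ
    rw [h6]
    ring
  rwa [h5] at h4

/-- **octave lower bound and sign**: at every point of relative depth `ω` (and on a small ball
round it) -/
theorem oct_lower {b z p : ℂ × ℂ} {X ω₀ ω ρ : ℝ} (hω₀ : 0 < ω₀) (hω₀1 : ω₀ ≤ 1) (hω : 0 < ω)
    (hω1 : ω ≤ 1) (hρ : 0 < ρ) (hX : 0 ≤ X)
    (b1 : ω₀ * ρ ≤ -b.1.im) (b2 : ω₀ * ρ ≤ b.2.im) (hb : dist b p ≤ X * ρ)
    (h1 : ω * ρ ≤ -z.1.im) (h2 : ω * ρ ≤ z.2.im) (hz : dist z p ≤ X * ρ)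
    {M : ℝ} {F G : ℂ × ℂ → ℂ} (hRG : RG (QT (min ω₀ ω * ρ / 2) p ((X + 2) * ρ)) M F G)
    (h0 : G b ≠ 0) {v : ℂ × ℂ} (hv : ‖v - z‖ ≤ ω * ρ / 160) :
    |(F b).re| ≤ AQ X ω₀ ω * KR * |(F v).re| +
        ((AQ X ω₀ ω * KR) ^ 2 - 1) * (1 + Real.log (M / ‖G b‖)) ∧
      (((AQ X ω₀ ω * KR) ^ 2 - 1) * (1 + Real.log (M / ‖G b‖)) < |(F b).re| →
        0 < (F b).re * (F v).re) := by
  have hωρ : 0 < ω * ρ := by positivity
  have hω₀ρ : 0 < ω₀ * ρ := by positivity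
  have hle : ω * ρ ≤ ρ := by nlinarith
  have hle' : ω₀ * ρ ≤ ρ := by nlinarith
  have h := quadL_chain hω₀ hω₀1 hω hω1 hρ hX b1 b2 hb h1 h2 hz
  have hball : ball z (ω * ρ / 2) ⊆ QT (min ω₀ ω * ρ / 2) p ((X + 2) * ρ) := by
    have h3 := ball_lift hωρ.le h1 h2 hz (t := ω * ρ) ⟨le_rfl, hle⟩ hρ
    rw [lift_self h1 h2] at h3
    have hle2 : min ω₀ ω * ρ / 2 ≤ ω * ρ / 2 := by
      have := min_le_right ω₀ ω
      gcongr
    refine Subset.trans ?_ (h3.trans (QT_mono hle2 le_rfl))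
    exact ball_subset_ball (by linarith)
  have hbU : b ∈ QT (min ω₀ ω * ρ / 2) p ((X + 2) * ρ) := by
    have h3 := ball_lift hω₀ρ.le b1 b2 hb (t := ω₀ * ρ) ⟨le_rfl, hle'⟩ hρ
    rw [lift_self b1 b2] at h3
    have hle2 : min ω₀ ω * ρ / 2 ≤ ω₀ * ρ / 2 := by
      have := min_le_left ω₀ ω
      gcongr
    exact (h3.trans (QT_mono hle2 le_rfl)) (mem_ball_self (by positivity))
  exact JL.fin (R := ω * ρ / 2) (h.mono_radius le_rfl (by linarith))
    (AQ_one hX hω₀ hω₀1 hω hω1) (by positivity) hball hRG (z' := b)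
    (by rw [sub_self, norm_zero]; positivity) h0 hbU (v := v) (by linarith)

end Vale.Agent.P097.H983
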