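import Vale.Agent.P097.H881.Quad

/-!
# P097 / case [c] / W-OCT: lower bounds and signs along the Schottky chain with R2 points

Companion of `H881.JR`: relation `JL U a z ρ w σ` (lower bound of `|Re F|` and constancy of its
sign along the same chains).
-/

set_option linter.all false

open Complex Metric Filter Topology Set

namespace Vale.Agent.P097.H983

open Vale.Agent.P097.H264 Vale.Agent.P097.H881

variable {E : Type*} [NormedAddCommGroup E] [NormedSpace ℂ E]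

/-- the R2 part of the state -/
noncomputable def Sg (M : ℝ) (G : E → ℂ) (z : E) : ℝ := Real.log (M / ‖G z‖)

theorem Sg_nonneg {U : Set E} {M : ℝ} {F G : E → ℂ} (h : RG U M F G) {z : E} (hz : z ∈ U)
    (h0 : G z ≠ 0) : 0 ≤ Sg M G z := by
  have hGc : 0 < ‖G z‖ := norm_pos_iff.mpr h0
  exact Real.log_nonneg ((one_le_div hGc).mpr (h.bd z hz))

/-- **one step, lower bound** -/
theorem lower {F G : E → ℂ} {c z : E} {R M : ℝ} (hR : 0 < R) (h : RG (ball c R) M F G)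
    (hc : G c ≠ 0) (hz : ‖z - c‖ ≤ R / 32) :
    |(F c).re| ≤ (1 + LS) * |(F z).re| + LS * (1 + Sg M G c) := by
  have hGc : 0 < ‖G c‖ := norm_pos_iff.mpr hc
  have hGM : ‖G c‖ ≤ M := h.bd c (mem_ball_self hR)
  have hM : 0 < M := hGc.trans_le hGM
  unfold Sg
  set L : ℝ := Real.log (M / ‖G c‖) with hL
  have hL0 : 0 ≤ L := Real.log_nonneg ((one_le_div hGc).mpr hGM)
  set N : ℕ := ⌊L⌋₊ with hN
  have hNL : (N : ℝ) ≤ L := Nat.floor_le hL0
  have hLN : L < N + 1 := Nat.lt_floor_add_one L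
  set φ : ℂ → E := fun t => c + t • (z - c) with hφ
  have hmap : MapsTo φ (ball 0 32) (ball c R) := by
    intro t ht
    rw [mem_ball_zero_iff] at ht
    rw [hφ, mem_ball, dist_eq_norm, add_sub_cancel_left, norm_smul]
    rcases eq_or_lt_of_le (norm_nonneg (z - c)) with h0 | h0
    · rw [← h0, mul_zero]; exact hR
    · calc ‖t‖ * ‖z - c‖ < 32 * ‖z - c‖ := by gcongr
        _ ≤ R := by linarith
  have hφd : DifferentiableOn ℂ φ (ball 0 32) := by rw [hφ]; fun_prop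
  have hφ0 : φ 0 = c := by simp [hφ]
  have hφ1 : φ 1 = z := by simp [hφ]
  have hcount : {t ∈ closedBall (0 : ℂ) 10 | G (φ t) = 0}.encard ≤ N := by
    refine jensen_encard (M := M) (R := 32) (by norm_num) (by norm_num) (h.hG.comp hφd hmap)
      (fun t ht => h.bd _ (hmap ht)) ?_
    simp only [Function.comp_apply, hφ0]
    have h1 : M = ‖G c‖ * Real.exp L := by
      rw [hL, Real.exp_log (by positivity)]
      field_simp
    have h2 : Real.exp L < Real.exp (N + 1) := Real.exp_lt_exp.mpr hLN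
    have h3 : Real.exp (N + 1 : ℝ) ≤ (16 / 5) ^ (N + 1) := by
      have h4 : Real.exp 1 ≤ 16 / 5 := by
        have := Real.exp_one_lt_d9
        linarith
      calc Real.exp (N + 1 : ℝ) = Real.exp 1 ^ (N + 1) := by
            rw [← Real.exp_nat_mul]
            push_cast
            ring_nf
        _ ≤ (16 / 5) ^ (N + 1) := by gcongr
    have h5 : (10 / 32 : ℝ) ^ (N + 1) * (16 / 5) ^ (N + 1) = 1 := by
      rw [← mul_pow]
      norm_num
    have h6 : (0 : ℝ) < (10 / 32 : ℝ) ^ (N + 1) := by positivity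
    calc M * (10 / 32) ^ (N + 1) = ‖G c‖ * (Real.exp L * (10 / 32) ^ (N + 1)) := by rw [h1]; ring
      _ < ‖G c‖ * ((16 / 5) ^ (N + 1) * (10 / 32) ^ (N + 1)) := by
          gcongr
          exact h2.trans_le h3
      _ = ‖G c‖ := by rw [mul_comm ((16 / 5 : ℝ) ^ (N + 1)), h5, mul_one]
  have hsub9 : ball (1 : ℂ) 9 ⊆ closedBall 0 10 := by
    intro t ht
    rw [mem_ball, dist_eq_norm] at ht
    rw [mem_closedBall_zero_iff]
    have h1 : ‖t‖ ≤ ‖t - 1‖ + ‖(1 : ℂ)‖ := by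
      have := norm_add_le (t - 1) 1
      rwa [sub_add_cancel] at this
    rw [norm_one] at h1
    linarith
  have hsub32 : ball (1 : ℂ) 9 ⊆ ball 0 32 := fun t ht => by
    have := hsub9 ht
    rw [mem_closedBall_zero_iff] at this
    rw [mem_ball_zero_iff]
    linarith
  have hss : {t ∈ ball (1 : ℂ) 9 | exp (F (φ t)) = 1} ⊆ {t ∈ closedBall (0 : ℂ) 10 | G (φ t) = 0} :=
    fun t ht => ⟨hsub9 ht.1, h.one _ (hmap (hsub32 ht.1)) ht.2⟩
  have hcount' : {t ∈ ball (1 : ℂ) 9 | exp (F (φ t)) = 1}.encard ≤ N :=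
    (Set.encard_le_encard hss).trans hcount
  have hst := step_count (F := fun t => F (φ t)) (c := (1 : ℂ)) (z := 0) (R := 9) (by norm_num)
    ((h.hF.comp hφd hmap).mono hsub32) hcount' (by norm_num)
  rw [hφ1, hφ0] at hst
  have h7 : |(F c).re| ≤ |(F z).re| + ‖F c - F z‖ := by
    have h5 := Complex.abs_re_le_norm (F c - F z)
    rw [Complex.sub_re] at h5
    have h6 := abs_sub_abs_le_abs_sub (F c).re (F z).re
    linarith
  have hLS := LS_one
  have h8 : LS * ((N : ℝ) + 1 + |(F z).re|) ≤ LS * (L + 1 + |(F z).re|) := by gcongr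
  calc |(F c).re| ≤ |(F z).re| + LS * (L + 1 + |(F z).re|) := by linarith
    _ = (1 + LS) * |(F z).re| + LS * (1 + L) := by ring

/-- lower bound relation -/
def JL (U : Set E) (a : ℝ) (z : E) (ρ : ℝ) (w : E) (σ : ℝ) : Prop :=
  ∀ (M : ℝ) (F G : E → ℂ), RG U M F G → ∀ z', ‖z' - z‖ ≤ ρ → G z' ≠ 0 →
    ∃ w', ‖w' - w‖ ≤ σ ∧ G w' ≠ 0 ∧ Sg M G w' ≤ a * Sg M G z' ∧
      |(F z').re| ≤ a * |(F w').re| + (a ^ 2 - 1) * (1 + Sg M G z') ∧
      ((a ^ 2 - 1) * (1 + Sg M G z') < |(F z').re| → 0 < (F z').re * (F w').re)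

theorem JL.refl (U : Set E) (z : E) (ρ : ℝ) : JL U 1 z ρ z ρ := by
  intro M F G _ z' hz' h0
  refine ⟨z', hz', h0, by simp, by simp, fun h => ?_⟩
  have h1 : 0 < |(F z').re| := by simpa using h
  exact mul_self_pos.2 (abs_pos.1 h1)

theorem JL.mono_radius {U : Set E} {a : ℝ} {z w : E} {ρ ρ' σ σ' : ℝ} (h : JL U a z ρ w σ)
    (hρ : ρ' ≤ ρ) (hσ : σ ≤ σ') : JL U a z ρ' w σ' := by
  intro M F G hRG z' hz' h0
  obtain ⟨w', h1, h2⟩ := h M F G hRG z' (hz'.trans hρ) h0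
  exact ⟨w', h1.trans hσ, h2⟩

theorem JL.mono_set {U V : Set E} {a : ℝ} {z w : E} {ρ σ : ℝ} (h : JL U a z ρ w σ) (hV : U ⊆ V) :
    JL V a z ρ w σ := fun M F G hRG => h M F G (hRG.mono hV)

theorem JL.mono {U : Set E} {a b : ℝ} {z w : E} {ρ σ : ℝ} (h : JL U a z ρ w σ) (hab : a ≤ b)
    (hz : closedBall z ρ ⊆ U) (ha : 1 ≤ a) : JL U b z ρ w σ := by
  intro M F G hRG z' hz' h0
  obtain ⟨w', h1, h2, h3, h4, h5⟩ := h M F G hRG z' hz' h0
  have hS := Sg_nonneg hRG (hz (by rwa [mem_closedBall, dist_eq_norm])) h0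
  have hab2 : a ^ 2 - 1 ≤ b ^ 2 - 1 := by nlinarith
  have hab3 : (a ^ 2 - 1) * (1 + Sg M G z') ≤ (b ^ 2 - 1) * (1 + Sg M G z') := by gcongr
  refine ⟨w', h1, h2, h3.trans (by gcongr), h4.trans (by gcongr), fun h => h5 (hab3.trans_lt h)⟩

theorem JL.trans {U : Set E} {a b : ℝ} {z w v : E} {ρ σ τ : ℝ} (h : JL U a z ρ w σ)
    (h' : JL U b w σ v τ) (hb : 1 ≤ b) (ha : 1 ≤ a) (hz : closedBall z ρ ⊆ U) :
    JL U (a * b) z ρ v τ := by
  intro M F G hRG z' hz' h0
  obtain ⟨w', h1, h2, h3, h4, h5⟩ := h M F G hRG z' hz' h0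
  obtain ⟨v', k1, k2, k3, k4, k5⟩ := h' M F G hRG w' h1 h2
  have hS := Sg_nonneg hRG (hz (by rwa [mem_closedBall, dist_eq_norm])) h0
  set g0 := Sg M G z' with hg0
  set g1 := Sg M G w' with hg1
  have hg : 1 + g1 ≤ a * (1 + g0) := by nlinarith
  have hb2 : 0 ≤ b ^ 2 - 1 := by nlinarith
  have ha2 : 0 ≤ a ^ 2 - 1 := by nlinarith
  have e1 : (b ^ 2 - 1) * (1 + g1) ≤ (b ^ 2 - 1) * (a * (1 + g0)) := by gcongr
  refine ⟨v', k1, k2, ?_, ?_, ?_⟩
  · calc Sg M G v' ≤ b * g1 := k3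
      _ ≤ b * (a * g0) := by gcongr
      _ = a * b * g0 := by ring
  · calc |(F z').re| ≤ a * |(F w').re| + (a ^ 2 - 1) * (1 + g0) := h4
      _ ≤ a * (b * |(F v').re| + (b ^ 2 - 1) * (1 + g1)) + (a ^ 2 - 1) * (1 + g0) := by gcongr
      _ ≤ a * (b * |(F v').re| + (b ^ 2 - 1) * (a * (1 + g0))) + (a ^ 2 - 1) * (1 + g0) := by
          gcongr
      _ = a * b * |(F v').re| + ((a * b) ^ 2 - 1) * (1 + g0) := by ring
  · intro hV
    have e2 : (a ^ 2 - 1) * (1 + g0) ≤ ((a * b) ^ 2 - 1) * (1 + g0) := by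
      have : a ^ 2 - 1 ≤ (a * b) ^ 2 - 1 := by nlinarith
      gcongr
    have s1 := h5 (e2.trans_lt hV)
    have e3 : a * ((b ^ 2 - 1) * (1 + g1)) < a * |(F w').re| := by
      calc a * ((b ^ 2 - 1) * (1 + g1)) ≤ a * ((b ^ 2 - 1) * (a * (1 + g0))) := by gcongr
        _ = ((a * b) ^ 2 - 1) * (1 + g0) - (a ^ 2 - 1) * (1 + g0) := by ring
        _ < |(F z').re| - (a ^ 2 - 1) * (1 + g0) := by linarith
        _ ≤ a * |(F w').re| := by linarith
    have s2 := k5 (lt_of_mul_lt_mul_left e3 (by linarith))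
    have hw : 0 < (F w').re ^ 2 := by
      have : (F w').re ≠ 0 := by
        intro h
        rw [h, mul_zero] at s1
        exact lt_irrefl _ s1
      positivity
    have s3 : 0 < ((F z').re * (F v').re) * (F w').re ^ 2 := by
      have := mul_pos s1 s2
      nlinarith
    exact (mul_pos_iff_of_pos_right hw).1 s3

/-- sign constancy on a ball -/
theorem same_sign {F : E → ℂ} {c z : E} {R : ℝ} (hF : ContinuousOn F (closedBall c R))
    (hz : ‖z - c‖ ≤ R) (hne : ∀ y : E, ‖y - c‖ ≤ R → (F y).re ≠ 0) :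
    0 < (F c).re * (F z).re := by
  by_contra hcon
  push Not at hcon
  set f : ℝ → ℝ := fun t => (F (c + (t : ℂ) • (z - c))).re with hf
  have hmap : ∀ t ∈ uIcc (0 : ℝ) 1, c + (t : ℂ) • (z - c) ∈ closedBall c R := by
    intro t ht
    rw [uIcc_of_le zero_le_one] at ht
    rw [mem_closedBall, dist_eq_norm, add_sub_cancel_left, norm_smul, Complex.norm_real,
      Real.norm_eq_abs, abs_of_nonneg ht.1]
    calc t * ‖z - c‖ ≤ 1 * ‖z - c‖ := by gcongr; exact ht.2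
      _ ≤ R := by linarith
  have hcont : ContinuousOn f (uIcc 0 1) := by
    refine Complex.continuous_re.comp_continuousOn (hF.comp (by fun_prop) hmap)
  have h0 : f 0 = (F c).re := by simp [hf]
  have h1 : f 1 = (F z).re := by simp [hf]
  have hmem : (0 : ℝ) ∈ uIcc (f 0) (f 1) := by
    rw [h0, h1, mem_uIcc]
    rcases mul_nonpos_iff.1 hcon with ⟨a, b⟩ | ⟨a, b⟩
    · exact Or.inr ⟨b, a⟩
    · exact Or.inl ⟨a, b⟩
  obtain ⟨t, ht, ht0⟩ := intermediate_value_uIcc hcont hmem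
  have h2 := hmap t ht
  rw [mem_closedBall, dist_eq_norm] at h2
  exact hne _ h2 ht0

/-- lower bound and sign in a ball -/
theorem lower_sign {F G : E → ℂ} {c z : E} {R M : ℝ} (hR : 0 < R) (h : RG (ball c R) M F G)
    (hc : G c ≠ 0) (hz : ‖z - c‖ ≤ R / 32) :
    |(F c).re| ≤ KR * |(F z).re| + (KR ^ 2 - 1) * (1 + Sg M G c) ∧
      ((KR ^ 2 - 1) * (1 + Sg M G c) < |(F c).re| → 0 < (F c).re * (F z).re) := by
  have hLS := LS_one
  have hKR : KR = 14 + LS := rfl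
  have hS := Sg_nonneg h (mem_ball_self hR) hc
  have e1 : LS * (1 + Sg M G c) ≤ (KR ^ 2 - 1) * (1 + Sg M G c) := by
    have : LS ≤ KR ^ 2 - 1 := by rw [hKR]; nlinarith
    gcongr
  constructor
  · refine (lower hR h hc hz).trans ?_
    have e2 : (1 + LS) * |(F z).re| ≤ KR * |(F z).re| := by
      have : 1 + LS ≤ KR := by rw [hKR]; linarith
      gcongr
    linarith
  · intro hV
    have hsub : closedBall c (R / 32) ⊆ ball c R := closedBall_subset_ball (by linarith)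
    refine same_sign (h.hF.continuousOn.mono hsub) hz fun y hy h0 => ?_
    have h2 := lower hR h hc hy
    rw [h0, abs_zero, mul_zero, zero_add] at h2
    linarith

/-- one step -/
theorem JL.one_step {U : Set E} {z w : E} {R R' : ℝ} (hR : 0 < R) (hRR : R ≤ 2 * R')
    (hU : ball z R ⊆ U) (hw : ‖w - z‖ ≤ R / 80) : JL U KR z (R / 80) w (R' / 80) := by
  intro M F G h z' hz' h0
  have hsub : ball z' (79 / 80 * R) ⊆ U := by
    refine Subset.trans ?_ hU
    intro y hy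
    rw [mem_ball, dist_eq_norm] at hy ⊢
    have : ‖y - z‖ ≤ ‖y - z'‖ + ‖z' - z‖ := norm_sub_le_norm_sub_add_norm_sub y z' z
    linarith
  have haw : ‖w - z'‖ ≤ R / 40 := by
    have h1 : ‖w - z'‖ ≤ ‖w - z‖ + ‖z - z'‖ := norm_sub_le_norm_sub_add_norm_sub _ z z'
    rw [norm_sub_rev z z'] at h1
    linarith
  obtain ⟨b, hb1, hb2, hb3, hb4, hb5, hb6⟩ := (h.mono hsub).move (c := z') (a := w)
    (by positivity) h0 (by linarith)
  have hKR : KR = 14 + LS := rfl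
  have hLS := LS_one
  have hS := Sg_nonneg (h.mono hsub) (mem_ball_self (by positivity)) h0
  obtain ⟨h1, h2⟩ := lower_sign (z := b) (by positivity) (h.mono hsub) h0
    (by rw [hb1]; linarith)
  refine ⟨b, by linarith, hb3, hb4.trans ?_, h1, h2⟩
  show 13 * Sg M G z' ≤ KR * Sg M G z'
  have : 13 ≤ KR := by rw [hKR]; linarith
  gcongr

/-- **at every point near the end** -/
theorem JL.fin {U : Set E} {a : ℝ} {z w : E} {ρ R : ℝ} (h : JL U a z ρ w (R / 80)) (ha : 1 ≤ a)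
    (hR : 0 < R) (hU : ball w R ⊆ U) {M : ℝ} {F G : E → ℂ} (hRG : RG U M F G) {z' : E}
    (hz' : ‖z' - z‖ ≤ ρ) (h0 : G z' ≠ 0) (hz'U : z' ∈ U) {v : E} (hv : ‖v - w‖ ≤ R / 80) :
    |(F z').re| ≤ a * KR * |(F v).re| + ((a * KR) ^ 2 - 1) * (1 + Sg M G z') ∧
      (((a * KR) ^ 2 - 1) * (1 + Sg M G z') < |(F z').re| → 0 < (F z').re * (F v).re) := by
  obtain ⟨w', h1, h2, h3, h4, h5⟩ := h M F G hRG z' hz' h0
  have hsub : ball w' (79 / 80 * R) ⊆ U := by
    refine Subset.trans ?_ hU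
    intro y hy
    rw [mem_ball, dist_eq_norm] at hy ⊢
    have : ‖y - w‖ ≤ ‖y - w'‖ + ‖w' - w‖ := norm_sub_le_norm_sub_add_norm_sub y w' w
    linarith
  have hvw : ‖v - w'‖ ≤ R / 40 := by
    have h1' : ‖v - w'‖ ≤ ‖v - w‖ + ‖w - w'‖ := norm_sub_le_norm_sub_add_norm_sub _ w w'
    rw [norm_sub_rev w w'] at h1'
    linarith
  obtain ⟨k4, k5⟩ := lower_sign (z := v) (by positivity) (hRG.mono hsub) h2 (by linarith)
  have hS := Sg_nonneg hRG hz'U h0
  have hKR := KR_one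
  set b := KR
  set g0 := Sg M G z' with hg0
  set g1 := Sg M G w' with hg1
  have hg : 1 + g1 ≤ a * (1 + g0) := by nlinarith
  have hb2 : 0 ≤ b ^ 2 - 1 := by nlinarith
  have ha2 : 0 ≤ a ^ 2 - 1 := by nlinarith
  have e1 : (b ^ 2 - 1) * (1 + g1) ≤ (b ^ 2 - 1) * (a * (1 + g0)) := by gcongr
  constructor
  · calc |(F z').re| ≤ a * |(F w').re| + (a ^ 2 - 1) * (1 + g0) := h4
      _ ≤ a * (b * |(F v).re| + (b ^ 2 - 1) * (1 + g1)) + (a ^ 2 - 1) * (1 + g0) := by gcongr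
      _ ≤ a * (b * |(F v).re| + (b ^ 2 - 1) * (a * (1 + g0))) + (a ^ 2 - 1) * (1 + g0) := by
          gcongr
      _ = a * b * |(F v).re| + ((a * b) ^ 2 - 1) * (1 + g0) := by ring
  · intro hV
    have e2 : (a ^ 2 - 1) * (1 + g0) ≤ ((a * b) ^ 2 - 1) * (1 + g0) := by
      have : a ^ 2 - 1 ≤ (a * b) ^ 2 - 1 := by nlinarith
      gcongr
    have s1 := h5 (e2.trans_lt hV)
    have e3 : a * ((b ^ 2 - 1) * (1 + g1)) < a * |(F w').re| := by
      calc a * ((b ^ 2 - 1) * (1 + g1)) ≤ a * ((b ^ 2 - 1) * (a * (1 + g0))) := by gcongr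
        _ = ((a * b) ^ 2 - 1) * (1 + g0) - (a ^ 2 - 1) * (1 + g0) := by ring
        _ < |(F z').re| - (a ^ 2 - 1) * (1 + g0) := by linarith
        _ ≤ a * |(F w').re| := by linarith
    have s2 := k5 (lt_of_mul_lt_mul_left e3 (by linarith))
    have hw : 0 < (F w').re ^ 2 := by
      have : (F w').re ≠ 0 := by
        intro h
        rw [h, mul_zero] at s1
        exact lt_irrefl _ s1
      positivity
    have s3 : 0 < ((F z').re * (F v).re) * (F w').re ^ 2 := by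
      have := mul_pos s1 s2
      nlinarith
    exact (mul_pos_iff_of_pos_right hw).1 s3

end Vale.Agent.P097.H983
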