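import Vale.Agent.P097.H983.Low

/-!
# P097 / case [c] / (T): NORM1 of helper82: a large `|Re G|` at a non R2 point stays large
-/

set_option linter.all false

open Complex Metric Filter Topology Set

namespace Vale.Agent.P097.H983

open Vale.Agent.P097.H264 Vale.Agent.P097.H881

variable {E : Type*} [NormedAddCommGroup E] [NormedSpace ℂ E]

/-- the constant of NORM1 -/
noncomputable def KN : ℝ := KR ^ (161 : ℝ) * KR

theorem KN_one : 1 ≤ KN :=
  one_le_mul_of_one_le_of_one_le (Real.one_le_rpow KR_one (by norm_num)) KR_one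

/-- **NORM1**, linear form -/
theorem norm1 {G g : E → ℂ} {c z₁ z₂ : E} {R M : ℝ} (hR : 0 < R) (h : RG (ball c R) M G g)
    (h1 : ‖z₁ - c‖ ≤ R / 2) (h2 : ‖z₂ - c‖ ≤ R / 2) (h0 : g z₂ ≠ 0) :
    |(G z₂).re| ≤ KN * |(G z₁).re| + KN ^ 2 * (1 + Real.log (M / ‖g z₂‖)) := by
  have hKR := KR_one
  have hd : ‖z₁ - z₂‖ ≤ R := by
    have : z₁ - z₂ = (z₁ - c) - (z₂ - c) := by abel
    rw [this]
    exact (norm_sub_le _ _).trans (by linarith)
  have hU : ∀ t ∈ Icc (0 : ℝ) 1, ball (z₂ + (t : ℂ) • (z₁ - z₂)) (R / 2) ⊆ ball c R := by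
    intro t ht y hy
    rw [mem_ball, dist_eq_norm] at hy ⊢
    have e : z₂ + (t : ℂ) • (z₁ - z₂) - c = ((1 - t : ℝ) : ℂ) • (z₂ - c) + (t : ℂ) • (z₁ - c) := by
      rw [Complex.ofReal_sub, Complex.ofReal_one]
      module
    have h3 : ‖z₂ + (t : ℂ) • (z₁ - z₂) - c‖ ≤ R / 2 := by
      rw [e]
      refine (norm_add_le _ _).trans ?_
      rw [norm_smul, norm_smul, Complex.norm_real, Complex.norm_real, Real.norm_eq_abs,
        Real.norm_eq_abs, abs_of_nonneg ht.1, abs_of_nonneg (by linarith [ht.2])]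
      calc (1 - t) * ‖z₂ - c‖ + t * ‖z₁ - c‖ ≤ (1 - t) * (R / 2) + t * (R / 2) := by
            have := ht.1
            have := ht.2
            gcongr
        _ = R / 2 := by ring
    calc ‖y - c‖ ≤ ‖y - (z₂ + (t : ℂ) • (z₁ - z₂))‖ + ‖z₂ + (t : ℂ) • (z₁ - z₂) - c‖ :=
          norm_sub_le_norm_sub_add_norm_sub _ _ _
      _ < R := by linarith
  have hJ := JL.path_seg (U := ball c R) (z := z₂) (w := z₁) (R := R / 2) (by positivity) hU
  have hcb : closedBall z₂ (R / 2 / 80) ⊆ ball c R := by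
    have h0' := hU 0 ⟨le_rfl, zero_le_one⟩
    rw [Complex.ofReal_zero, zero_smul, add_zero] at h0'
    exact (closedBall_subset_ball (by linarith)).trans h0'
  have hexp : 80 * ‖z₁ - z₂‖ / (R / 2) + 1 ≤ 161 := by
    have : 80 * ‖z₁ - z₂‖ / (R / 2) ≤ 160 := by
      rw [div_le_iff₀ (by positivity)]
      linarith
    linarith
  have ha : 1 ≤ KR ^ (80 * ‖z₁ - z₂‖ / (R / 2) + 1) := Real.one_le_rpow hKR (by positivity)
  have hJ' := hJ.mono (b := KR ^ (161 : ℝ)) (Real.rpow_le_rpow_of_exponent_le hKR hexp) hcb ha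
  have hb : 1 ≤ KR ^ (161 : ℝ) := Real.one_le_rpow hKR (by norm_num)
  have hz1U : ball z₁ (R / 2) ⊆ ball c R := by
    have h0' := hU 1 ⟨zero_le_one, le_rfl⟩
    rw [Complex.ofReal_one, one_smul, add_sub_cancel] at h0'
    exact h0'
  have hz2U : z₂ ∈ ball c R := by
    rw [mem_ball, dist_eq_norm]; linarith
  obtain ⟨h3, _⟩ := JL.fin (R := R / 2) hJ' hb (by positivity) hz1U h (z' := z₂)
    (by rw [sub_self, norm_zero]; positivity) h0 hz2U (v := z₁) (by rw [sub_self, norm_zero]; positivity)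
  have hS := Sg_nonneg h hz2U h0
  have hS' : 0 ≤ Real.log (M / ‖g z₂‖) := hS
  refine h3.trans ?_
  show KN * |(G z₁).re| + (KN ^ 2 - 1) * (1 + Real.log (M / ‖g z₂‖)) ≤ _
  have : (KN ^ 2 - 1) * (1 + Real.log (M / ‖g z₂‖)) ≤ KN ^ 2 * (1 + Real.log (M / ‖g z₂‖)) := by
    gcongr
    linarith
  linarith

/-- **NORM1**, literal form of helper82 (any complex normed space) -/
theorem norm1' (M c R : ℝ) (hc : 0 < c) : ∃ C : ℝ, ∀ G g : E → ℂ,
    DifferentiableOn ℂ G (ball 0 1) → DifferentiableOn ℂ g (ball 0 1) →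
    (∀ z ∈ ball (0 : E) 1, ‖g z‖ ≤ M) → (∀ z ∈ ball (0 : E) 1, exp (G z) = 1 → g z = 0) →
    ∀ z₁ z₂ : E, ‖z₁‖ ≤ 1 / 2 → ‖z₂‖ ≤ 1 / 2 → |(G z₁).re| ≤ R → c ≤ ‖g z₂‖ →
    |(G z₂).re| ≤ C := by
  refine ⟨KN * R + KN ^ 2 * (1 + Real.log (M / c)), fun G g hG hg hM h1 z₁ z₂ a1 a2 a3 a4 => ?_⟩
  have hRG : RG (ball (0 : E) 1) M G g := ⟨hG, hg, h1, hM⟩
  have h0 : g z₂ ≠ 0 := by
    intro h
    rw [h, norm_zero] at a4
    linarith
  have hgp : 0 < ‖g z₂‖ := norm_pos_iff.2 h0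
  have hMp : 0 < M := hgp.trans_le (hM z₂ (by rw [mem_ball_zero_iff]; linarith))
  have h := norm1 (c := 0) (R := 1) one_pos hRG (by simpa using a1) (by simpa using a2) h0
  have hKN := KN_one
  refine h.trans ?_
  have hl : Real.log (M / ‖g z₂‖) ≤ Real.log (M / c) := by
    apply Real.log_le_log (by positivity)
    gcongr
  have e1 : KN * |(G z₁).re| ≤ KN * R := by gcongr
  have e2 : KN ^ 2 * (1 + Real.log (M / ‖g z₂‖)) ≤ KN ^ 2 * (1 + Real.log (M / c)) := by gcongr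
  linarith

end Vale.Agent.P097.H983
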