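import Vale.Agent.P097.H983.Har
import Vale.Agent.P097.H881.Ch
import Vale.Agent.P097.H328.W.PosW
import Vale.Agent.P097.TC.Defs5

/-!
# P097 / case [c] / (T), row TRANS (helper82): transport of the bounds along a chain of balls
-/

set_option linter.all false

open Complex Metric Filter Topology Set

namespace Vale.Agent.P097.H983

open Vale.Agent.P097.TC Vale.Agent.P097.A5 Vale.Agent.P097.H881 Vale.Agent.P097.H328.W

variable {E : Type*} [NormedAddCommGroup E] [NormedSpace ℂ E]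

section wall
variable {U : Set E} {th : E → ℂ} {H : ℝ}

/-- wall distance and displacement along a chain -/
theorem ch_wall (hd : DifferentiableOn ℂ th U) (hm : ∀ z ∈ U, |(th z).im| < H) {n : ℕ} {z w : E}
    {R R' : ℝ} (h : Ch U n z R w R') :
    H - |(th z).im| ≤ 2 ^ n * (H - |(th w).im|) ∧ ‖th w - th z‖ ≤ n * H := by
  induction h with
  | refl hR hU => simp
  | @step n z w v R R' R'' h hRR hv hR hU ih =>
    obtain ⟨hR', hU'⟩ := h.stop
    have hv' : ‖v - w‖ < R' := by linarith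
    have h1 := (wall_ball (c := w) (z := v) (R := R') (H := H) (hd.mono hU')
      (fun y hy => hm y (hU' hy)) hv').1
    have h2 := move_ball (c := w) (z := v) (R := R') (H := H) (hd.mono hU')
      (fun y hy => hm y (hU' hy)) hv'
    have hw : 0 < H - |(th w).im| := by linarith [hm w (hU' (mem_ball_self hR'))]
    have hvm : 0 < H - |(th v).im| := by
      have : v ∈ ball w R' := by rwa [mem_ball, dist_eq_norm]
      linarith [hm v (hU' this)]
    have hH : 0 < H := (abs_nonneg _).trans_lt (hm w (hU' (mem_ball_self hR')))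
    have h3 : H - |(th w).im| ≤ 2 * (H - |(th v).im|) := by
      have a1 : (79 / 80 * R') * (H - |(th w).im|) ≤ (R' - ‖v - w‖) * (H - |(th w).im|) := by
        gcongr
        linarith
      have a2 : (R' + ‖v - w‖) * (H - |(th v).im|) ≤ (81 / 80 * R') * (H - |(th v).im|) := by
        gcongr
        linarith
      have a3 : R' * (H - |(th w).im|) ≤ R' * (2 * (H - |(th v).im|)) := by
        have : 0 < R' * (H - |(th v).im|) := by positivity
        nlinarith
      exact le_of_mul_le_mul_left a3 hR'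
    constructor
    · calc H - |(th z).im| ≤ 2 ^ n * (H - |(th w).im|) := ih.1
        _ ≤ 2 ^ n * (2 * (H - |(th v).im|)) := by gcongr
        _ = 2 ^ (n + 1) * (H - |(th v).im|) := by ring
    · have h4 : ‖th v - th w‖ ≤ H := by
        refine h2.trans ?_
        rw [div_le_iff₀ (by linarith)]
        nlinarith
      push_cast
      calc ‖th v - th z‖ ≤ ‖th v - th w‖ + ‖th w - th z‖ := norm_sub_le_norm_sub_add_norm_sub _ _ _
        _ ≤ H + n * H := by linarith [ih.2]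
        _ = (n + 1) * H := by ring

/-- the part of `U` where the wall distance is controlled -/
def Uw (U : Set E) (th : E → ℂ) (H : ℝ) (z : E) (n : ℕ) : Set E :=
  {y ∈ U | H - |(th z).im| < 4 * 2 ^ n * (H - |(th y).im|)}

theorem Uw_mono (hm : ∀ z ∈ U, |(th z).im| < H) (z : E) {n m : ℕ} (h : n ≤ m) :
    Uw U th H z n ⊆ Uw U th H z m := by
  rintro y ⟨h1, h2⟩
  refine ⟨h1, h2.trans_le ?_⟩
  have h3 : 0 ≤ H - |(th y).im| := by linarith [hm y h1]
  have h4 : (2 : ℝ) ^ n ≤ 2 ^ m := pow_le_pow_right₀ (by norm_num) h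
  gcongr

theorem isOpen_Uw (hU : IsOpen U) (hd : DifferentiableOn ℂ th U) (z : E) (n : ℕ) :
    IsOpen (Uw U th H z n) := by
  have hc : ContinuousOn (fun y => 4 * 2 ^ n * (H - |(th y).im|)) U :=
    (continuousOn_const.sub ((Complex.continuous_im.comp_continuousOn hd.continuousOn).abs)).const_smul
      (4 * 2 ^ n : ℝ)
  exact hc.isOpen_inter_preimage hU (isOpen_Ioi (a := H - |(th z).im|))

theorem half_ball (hd : DifferentiableOn ℂ th U) (hm : ∀ z ∈ U, |(th z).im| < H) {n : ℕ} {z w : E}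
    {R R' : ℝ} (h : Ch U n z R w R') : ball w (R' / 2) ⊆ Uw U th H z n := by
  intro y hy
  rw [mem_ball, dist_eq_norm] at hy
  obtain ⟨hR', hU'⟩ := h.stop
  have hy' : y ∈ ball w R' := by rw [mem_ball, dist_eq_norm]; linarith
  have h1 := (wall_ball (c := w) (z := y) (R := R') (H := H) (hd.mono hU')
      (fun y hy => hm y (hU' hy)) (by linarith)).1
  have hyU := hU' hy'
  have hw : 0 < H - |(th w).im| := by linarith [hm w (hU' (mem_ball_self hR'))]
  have hyp : 0 < H - |(th y).im| := by linarith [hm y hyU]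
  have h3 : H - |(th w).im| ≤ 3 * (H - |(th y).im|) := by
    have a1 : (R' / 2) * (H - |(th w).im|) ≤ (R' - ‖y - w‖) * (H - |(th w).im|) := by
      gcongr
      linarith
    have a2 : (R' + ‖y - w‖) * (H - |(th y).im|) ≤ (3 / 2 * R') * (H - |(th y).im|) := by
      gcongr
      linarith
    have a3 : R' * (H - |(th w).im|) ≤ R' * (3 * (H - |(th y).im|)) := by linarith
    exact le_of_mul_le_mul_left a3 hR'
  refine ⟨hyU, ?_⟩
  calc H - |(th z).im| ≤ 2 ^ n * (H - |(th w).im|) := (ch_wall hd hm h).1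
    _ ≤ 2 ^ n * (3 * (H - |(th y).im|)) := by gcongr
    _ < 4 * 2 ^ n * (H - |(th y).im|) := by
        have : 0 < 2 ^ n * (H - |(th y).im|) := by positivity
        linarith

/-- the halved chain -/
theorem ch_half (hd : DifferentiableOn ℂ th U) (hm : ∀ z ∈ U, |(th z).im| < H) {n : ℕ} {z w : E}
    {R R' : ℝ} (h : Ch U n z R w R') : Ch (Uw U th H z n) (3 * n) z (R / 2) w (R' / 2) := by
  induction h with
  | @refl z R hR hU =>
    exact Ch.refl (by positivity) (half_ball hd hm (Ch.refl hR hU))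
  | @step n z w v R R' R'' h hRR hv hR hU ih =>
    obtain ⟨hR', hU'⟩ := h.stop
    have h0 : ball w (R' / 2) ⊆ Uw U th H z (n + 1) :=
      (half_ball hd hm h).trans (Uw_mono hm z (Nat.le_succ n))
    have hend : ball v (R'' / 2) ⊆ Uw U th H z (n + 1) :=
      half_ball hd hm (Ch.step h hRR hv hR hU)
    have ih' := ih.mono_set (Uw_mono hm z (Nat.le_succ n))
    set m1 : E := w + ((1 / 2 : ℝ) : ℂ) • (v - w) with hm1
    set m2 : E := w + ((3 / 4 : ℝ) : ℂ) • (v - w) with hm2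
    have e1 : ‖m1 - w‖ = 1 / 2 * ‖v - w‖ := by
      rw [hm1, add_sub_cancel_left, norm_smul, Complex.norm_real, Real.norm_eq_abs,
        abs_of_pos (by norm_num)]
    have e2 : ‖m2 - w‖ = 3 / 4 * ‖v - w‖ := by
      rw [hm2, add_sub_cancel_left, norm_smul, Complex.norm_real, Real.norm_eq_abs,
        abs_of_pos (by norm_num)]
    have e3 : ‖m2 - m1‖ = 1 / 4 * ‖v - w‖ := by
      have : m2 - m1 = ((1 / 4 : ℝ) : ℂ) • (v - w) := by
        rw [hm1, hm2, add_sub_add_left_eq_sub, ← sub_smul, ← Complex.ofReal_sub]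
        norm_num
      rw [this, norm_smul, Complex.norm_real, Real.norm_eq_abs, abs_of_pos (by norm_num)]
    have e4 : ‖v - m2‖ = 1 / 4 * ‖v - w‖ := by
      have : v - m2 = ((1 / 4 : ℝ) : ℂ) • (v - w) := by
        have h5 : v - m2 = (v - w) - ((3 / 4 : ℝ) : ℂ) • (v - w) := by rw [hm2]; abel
        have h6 : ((1 / 4 : ℝ) : ℂ) = 1 - ((3 / 4 : ℝ) : ℂ) := by push_cast; norm_num
        rw [h5, h6, sub_smul, one_smul]
      rw [this, norm_smul, Complex.norm_real, Real.norm_eq_abs, abs_of_pos (by norm_num)]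
    have sub : ∀ m : E, ‖m - w‖ ≤ R' / 80 → ball m (R' / 4) ⊆ Uw U th H z (n + 1) := by
      intro m hmw
      refine Subset.trans (fun y hy => ?_) h0
      rw [mem_ball, dist_eq_norm] at hy ⊢
      have := norm_sub_le_norm_sub_add_norm_sub y m w
      linarith
    have c1 : Ch (Uw U th H z (n + 1)) (3 * n + 1) z (R / 2) m1 (R' / 4) :=
      Ch.step ih' (by linarith) (by rw [e1]; linarith) (by positivity)
        (sub m1 (by rw [e1]; linarith [norm_nonneg (v - w)]))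
    have c2 : Ch (Uw U th H z (n + 1)) (3 * n + 1 + 1) z (R / 2) m2 (R' / 4) :=
      Ch.step c1 (by linarith) (by rw [e3]; linarith) (by positivity)
        (sub m2 (by rw [e2]; linarith [norm_nonneg (v - w)]))
    exact Ch.step c2 (by linarith) (by rw [e4]; linarith) (by positivity) hend

end wall

/-- bounds of the curve away from the walls -/
theorem crv_bd {Λ H : ℝ} {F q : ℂ → ℂ} (crv : Crv Λ H F q) {η : ℝ} (hη : 0 < η) :
    ∃ M : ℝ, 1 ≤ M ∧ ∀ x ∈ Sb H, η ≤ H - |x.im| → ‖F x - 2 * Real.pi * x‖ ≤ M ∧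
      ‖deriv F x‖ ≤ M ∧ ‖q x‖ ≤ M ∧ ‖deriv q x‖ ≤ M := by
  obtain ⟨C, hC, h⟩ := crv.gro 1 one_pos
  refine ⟨Real.exp (Real.exp (C * η ^ (-(1 : ℝ)))), Real.one_le_exp (Real.exp_pos _).le,
    fun x hx hxη => ?_⟩
  obtain ⟨h1, h2, h3, h4⟩ := h x hx
  have h5 : (H - |x.im|) ^ (-(1 : ℝ)) ≤ η ^ (-(1 : ℝ)) := by
    rw [Real.rpow_neg_one, Real.rpow_neg_one]
    exact inv_anti₀ hη hxη
  have h6 : Real.exp (C * (H - |x.im|) ^ (-(1 : ℝ))) ≤ Real.exp (C * η ^ (-(1 : ℝ))) := by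
    gcongr
  have h7 : Real.exp (C * η ^ (-(1 : ℝ))) ≤ Real.exp (Real.exp (C * η ^ (-(1 : ℝ)))) := by
    have := Real.add_one_le_exp (Real.exp (C * η ^ (-(1 : ℝ))))
    linarith
  have h8 := Real.exp_le_exp.2 h6
  exact ⟨h1.trans (h6.trans h7), h2.trans (h6.trans h7), h3.trans h8, h4.trans h8⟩

/-- transport along a chain, raw form -/
theorem trans_raw {Λ H : ℝ} {F q : ℂ → ℂ} (crv : Crv Λ H F q) {η M : ℝ} (hη : 0 < η) (hM1 : 1 ≤ M)
    (hM : ∀ x ∈ Sb H, η ≤ H - |x.im| → ‖F x - 2 * Real.pi * x‖ ≤ M ∧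
      ‖deriv F x‖ ≤ M ∧ ‖q x‖ ≤ M ∧ ‖deriv q x‖ ≤ M) {U : Set E} (hU : IsOpen U) {al p th : E → ℂ}
    (ha : DifferentiableOn ℂ al U) (hp : DifferentiableOn ℂ p U) (hd : DifferentiableOn ℂ th U)
    (hm : ∀ z ∈ U, th z ∈ Sb H) (hi : ∀ z ∈ U, Mi F q (al z) (p z) (th z) = 0)
    (hs : ∀ z ∈ U, deriv (Mi F q (al z) (p z)) (th z) ≠ 0)
    {n : ℕ} {z w : E} {R R' : ℝ} (hch : Ch U n z R w R') (hη' : η * (4 * 2 ^ n) ≤ H - |(th z).im|)
    (h0 : deriv F (th z) ≠ 0) {v : E} (hv : ‖v - w‖ ≤ R' / 160) :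
    η ≤ H - |(th z).im| ∧ η ≤ H - |(th v).im| ∧ th z ∈ Sb H ∧ th v ∈ Sb H ∧
    1 ≤ St M (fun z => 2 * I * (al z - F (th z))) (fun z => deriv F (th z)) z ∧
    2 * ‖(al v - F (th v)) - (al z - F (th z))‖ ≤ KR * KR ^ (3 * n) *
      St M (fun z => 2 * I * (al z - F (th z))) (fun z => deriv F (th z)) z ∧
    ‖p v‖ ≤ (M + 1) * Real.exp (KQ * KR ^ (3 * n) *
      St M (fun z => 2 * I * (al z - F (th z))) (fun z => deriv F (th z)) z) ∧
    ‖th v - th z‖ ≤ (n + 1) * H := by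
  have hKR := KR_one
  have hm' : ∀ z ∈ U, |(th z).im| < H := hm
  obtain ⟨hR', hU'⟩ := hch.stop
  have hWo : IsOpen (Uw U th H z n) := isOpen_Uw hU hd z n
  have hWU : Uw U th H z n ⊆ U := fun y hy => hy.1
  have hwall : ∀ y ∈ Uw U th H z n, η ≤ H - |(th y).im| := by
    intro y hy
    have h1 : η * (4 * 2 ^ n) < 4 * 2 ^ n * (H - |(th y).im|) := hη'.trans_lt hy.2
    have h2 : (0 : ℝ) < 4 * 2 ^ n := by positivity
    have h3 : (4 * 2 ^ n) * η < (4 * 2 ^ n) * (H - |(th y).im|) := by linarith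
    exact (lt_of_mul_lt_mul_left h3 h2.le).le
  have hMW : ∀ y ∈ Uw U th H z n, ‖deriv F (th y)‖ ≤ M := fun y hy =>
    (hM _ (hm y (hWU hy)) (hwall y hy)).2.1
  have hch' := ch_half hd hm' hch
  have hzW : z ∈ Uw U th H z n := hch'.start.2 (mem_ball_self hch'.start.1)
  have hvW : v ∈ Uw U th H z n := hch'.stop.2 (by rw [mem_ball, dist_eq_norm]; linarith)
  obtain ⟨h1, _, h3⟩ := pos_fin crv.cv hWo (ha.mono hWU) (hp.mono hWU) (hd.mono hWU)
    (fun y hy => hm y (hWU hy)) (fun y hy => hi y (hWU hy)) (fun y hy => hs y (hWU hy)) hMW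
    (a := KR ^ (3 * n)) (z := z) (w := w) (ρ := R / 2 / 80) (R := R' / 2) hch'.jr
    (one_le_pow₀ hKR) hch'.stop.1 hch'.stop.2 (z' := z)
    (by rw [sub_self, norm_zero]; have := hch'.start.1; positivity) h0 hzW (v := v) (by linarith)
  have hS3 : 1 ≤ St M (fun z => 2 * I * (al z - F (th z))) (fun z => deriv F (th z)) z :=
    St_pos (rg crv.cv (ha.mono hWU) (hd.mono hWU)
    (fun y hy => hm y (hWU hy)) (fun y hy => hi y (hWU hy)) (fun y hy => hs y (hWU hy)) hMW) hzW h0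
  refine ⟨hwall z hzW, hwall v hvW, hm z (hWU hzW), hm v (hWU hvW), hS3, ?_, ?_, ?_⟩
  · have e1 : 2 * I * (al v - F (th v)) - 2 * I * (al z - F (th z)) =
        (2 * I) * ((al v - F (th v)) - (al z - F (th z))) := by ring
    rw [e1, norm_mul] at h1
    have e2 : ‖(2 * I : ℂ)‖ = 2 := by simp
    rw [e2] at h1
    refine h1.trans ?_
    have : KR * KR ^ (3 * n) - 1 ≤ KR * KR ^ (3 * n) := by linarith
    gcongr
  · have e1 := (hM _ (hm v (hWU hvW)) (hwall v hvW)).2.2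
    have hKQ : 0 ≤ KQ := by unfold KQ; linarith [KP_one]
    have e2 : M * ‖p v‖ ≤ M * ((M + 1) * Real.exp (KQ * KR ^ (3 * n) *
      St M (fun z => 2 * I * (al z - F (th z))) (fun z => deriv F (th z)) z)) := by
      refine h3.trans ?_
      rw [← mul_assoc]
      apply mul_le_mul_of_nonneg_right _ (Real.exp_pos _).le
      nlinarith [e1.1, e1.2]
    exact le_of_mul_le_mul_left e2 (by linarith)
  · have e1 := (ch_wall hd hm' hch).2
    have e2 := move_ball (c := w) (z := v) (R := R') (H := H) (hd.mono hU')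
      (fun y hy => hm' y (hU' hy)) (by linarith)
    have hH : 0 < H := crv.cv.b0
    have e3 : ‖th v - th w‖ ≤ H := by
      refine e2.trans ?_
      rw [div_le_iff₀ (by linarith)]
      nlinarith
    calc ‖th v - th z‖ ≤ ‖th v - th w‖ + ‖th w - th z‖ := norm_sub_le_norm_sub_add_norm_sub _ _ _
      _ ≤ (n + 1) * H := by linarith

theorem im_F_le {F : ℂ → ℂ} {x : ℂ} {H M : ℝ} (h1 : ‖F x - 2 * Real.pi * x‖ ≤ M) (h2 : |x.im| ≤ H) :
    |(F x).im| ≤ 2 * Real.pi * H + M := by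
  have e2 := (Complex.abs_im_le_norm (F x - 2 * Real.pi * x)).trans h1
  have e3 : (F x - 2 * Real.pi * x).im = (F x).im - 2 * Real.pi * x.im := by
    simp [Complex.sub_im, Complex.mul_im]
  rw [e3] at e2
  have e4 : |2 * Real.pi * x.im| ≤ 2 * Real.pi * H := by
    rw [abs_mul, abs_of_pos (by positivity)]
    gcongr
  have e5 := abs_add_le ((F x).im - 2 * Real.pi * x.im) (2 * Real.pi * x.im)
  rw [sub_add_cancel] at e5
  linarith

theorem St_le {M H C c₁ : ℝ} {F : ℂ → ℂ} {al th : E → ℂ} {z : E} (hM1 : 1 ≤ M) (hc₁ : 0 < c₁)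
    (h1 : |(al z).im| ≤ C) (h2 : |(F (th z)).im| ≤ 2 * Real.pi * H + M)
    (h3 : c₁ ≤ ‖deriv F (th z)‖) :
    St M (fun z => 2 * I * (al z - F (th z))) (fun z => deriv F (th z)) z ≤
      1 + 2 * (|C| + 2 * Real.pi * H + M) + |Real.log (M / c₁)| := by
  have hz4 : |(al z - F (th z)).im| ≤ |C| + 2 * Real.pi * H + M := by
    rw [Complex.sub_im]
    have e1 := abs_sub (al z).im (F (th z)).im
    have e3 := h1.trans (le_abs_self C)
    linarith
  have hre : ∀ x : ℂ, (2 * I * x).re = -(2 * x.im) := by intro x; simp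
  have e1 : |(2 * I * (al z - F (th z))).re| ≤ 2 * (|C| + 2 * Real.pi * H + M) := by
    rw [hre, abs_neg, abs_mul, abs_two]
    linarith
  have e2 : Real.log (M / ‖deriv F (th z)‖) ≤ |Real.log (M / c₁)| := by
    refine le_trans ?_ (le_abs_self _)
    have h4 : 0 < ‖deriv F (th z)‖ := hc₁.trans_le h3
    apply Real.log_le_log (by positivity)
    gcongr
  show 1 + |(2 * I * (al z - F (th z))).re| + Real.log (M / ‖deriv F (th z)‖) ≤ _
  linarith

/-- **TRANS** : transport of the bounds along a chain, R2 points included -/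
theorem trans {Λ H : ℝ} {F q : ℂ → ℂ} (crv : Crv Λ H F q) (N : ℕ) {c₁ : ℝ} (hc₁ : 0 < c₁) (C : ℝ) :
    ∃ c' : ℝ, 0 < c' ∧ ∃ C' : ℝ, 0 < C' ∧ ∀ {U : Set E}, IsOpen U → ∀ {al p th : E → ℂ},
      DifferentiableOn ℂ al U → DifferentiableOn ℂ p U → DifferentiableOn ℂ th U →
      (∀ z ∈ U, th z ∈ Sb H) → (∀ z ∈ U, Mi F q (al z) (p z) (th z) = 0) →
      (∀ z ∈ U, deriv (Mi F q (al z) (p z)) (th z) ≠ 0) →
      ∀ {n : ℕ} {z w : E} {R R' : ℝ}, n ≤ N → Ch U n z R w R' →
      |(th z).im| ≤ (1 - c₁) * H → c₁ ≤ ‖deriv F (th z)‖ → |(al z).im| ≤ C →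
      ∀ v, ‖v - w‖ ≤ R' / 160 → |(th v).im| ≤ (1 - c') * H ∧ |(al v).im| ≤ C' ∧ ‖p v‖ ≤ C' ∧
        ‖al v - al z‖ ≤ C' ∧ ‖th v - th z‖ ≤ C' := by
  have hH : 0 < H := crv.cv.b0
  set η : ℝ := c₁ * H / (4 * 2 ^ N) with hη
  have hη0 : 0 < η := by positivity
  obtain ⟨M, hM1, hM⟩ := crv_bd crv hη0
  have hKR := KR_one
  have hKQ : 0 ≤ KQ := by unfold KQ; linarith [KP_one]
  obtain ⟨T0, hT0⟩ : ∃ T0, T0 = 1 + 2 * (|C| + 2 * Real.pi * H + M) + |Real.log (M / c₁)| := ⟨_, rfl⟩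
  have hT00 : 0 < T0 := by rw [hT0]; positivity
  obtain ⟨a0, ha0⟩ : ∃ a0, a0 = KR ^ (3 * N) := ⟨_, rfl⟩
  have ha00 : 0 < a0 := by rw [ha0]; positivity
  obtain ⟨B1, hB1⟩ : ∃ B1, B1 = KR * a0 * T0 := ⟨_, rfl⟩
  have hB10 : 0 < B1 := by rw [hB1]; positivity
  obtain ⟨P1, hP1⟩ : ∃ P1, P1 = (M + 1) * Real.exp (KQ * a0 * T0) := ⟨_, rfl⟩
  have hP10 : 0 < P1 := by rw [hP1]; positivity
  obtain ⟨D1, hD1⟩ : ∃ D1, D1 = ((N : ℝ) + 1) * H := ⟨_, rfl⟩
  have hD10 : 0 < D1 := by rw [hD1]; positivity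
  have hpi := Real.pi_pos
  have hC0 := abs_nonneg C
  refine ⟨η / H, by positivity, (|C| + 2 * (2 * Real.pi * H + M) + B1) + P1 +
    (B1 + 2 * Real.pi * D1 + 2 * M) + D1 + 1, by positivity,
    fun {U} hU {al p th} ha hp hd hm hi hs {n z w R R'} hn hch hz1 hz2 hz3 v hv => ?_⟩
  have h0 : deriv F (th z) ≠ 0 := by
    intro h
    rw [h, norm_zero] at hz2
    linarith
  have h2n : (2 : ℝ) ^ n ≤ 2 ^ N := pow_le_pow_right₀ (by norm_num) hn
  have hη' : η * (4 * 2 ^ n) ≤ H - |(th z).im| := by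
    have e1 : η * (4 * 2 ^ n) ≤ η * (4 * 2 ^ N) := by gcongr
    have e2 : η * (4 * 2 ^ N) = c₁ * H := by rw [hη]; field_simp
    linarith
  obtain ⟨g1, g2, g3, g4, g5, g6, g7, g8⟩ := trans_raw crv hη0 hM1 hM hU ha hp hd hm hi hs hch hη'
    h0 hv
  obtain ⟨k1, k2, k3, k4⟩ := hM _ g3 g1
  obtain ⟨l1, l2, l3, l4⟩ := hM _ g4 g2
  have hFz : |(F (th z)).im| ≤ 2 * Real.pi * H + M := im_F_le k1 (show |(th z).im| < H from g3).le
  have hFv : |(F (th v)).im| ≤ 2 * Real.pi * H + M := im_F_le l1 (show |(th v).im| < H from g4).le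
  have hS := St_le (H := H) hM1 hc₁ hz3 hFz hz2
  rw [← hT0] at hS
  have han : KR ^ (3 * n) ≤ a0 := by rw [ha0]; exact pow_le_pow_right₀ hKR (by omega)
  have h4 : 2 * ‖(al v - F (th v)) - (al z - F (th z))‖ ≤ B1 := by
    refine g6.trans ?_
    rw [hB1]
    gcongr
  have h4' : ‖(al v - F (th v)) - (al z - F (th z))‖ ≤ B1 := by
    linarith [norm_nonneg ((al v - F (th v)) - (al z - F (th z)))]
  have h7 : ‖p v‖ ≤ P1 := by
    refine g7.trans ?_
    rw [hP1]
    gcongr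
  have hth : ‖th v - th z‖ ≤ D1 := by
    refine g8.trans ?_
    rw [hD1]
    have : (n : ℝ) ≤ N := by exact_mod_cast hn
    gcongr
  have e5 : 0 ≤ B1 + 2 * Real.pi * D1 + 2 * M := by positivity
  have e6 : 0 ≤ |C| + 2 * (2 * Real.pi * H + M) + B1 := by positivity
  refine ⟨?_, ?_, by linarith, ?_, by linarith⟩
  · have e2 : (1 - η / H) * H = H - η := by field_simp
    rw [e2]
    linarith
  · have e1 := (Complex.abs_im_le_norm ((al v - F (th v)) - (al z - F (th z)))).trans h4'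
    have e2 : ((al v - F (th v)) - (al z - F (th z))).im =
      (al v).im - (F (th v)).im - (al z).im + (F (th z)).im := by
      simp only [Complex.sub_im]; ring
    rw [e2] at e1
    have a1 := abs_le.1 e1
    have a2 := abs_le.1 hFv
    have a3 := abs_le.1 hFz
    have a4 := abs_le.1 (hz3.trans (le_abs_self C))
    rw [abs_le]
    constructor <;> linarith
  · have e3 : al v - al z = ((al v - F (th v)) - (al z - F (th z))) +
        (F (th v) - 2 * Real.pi * th v) - (F (th z) - 2 * Real.pi * th z) +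
        2 * Real.pi * (th v - th z) := by ring
    have e4 : ‖(2 * Real.pi * (th v - th z) : ℂ)‖ ≤ 2 * Real.pi * D1 := by
      rw [norm_mul]
      have : ‖(2 * Real.pi : ℂ)‖ = 2 * Real.pi := by
        rw [norm_mul, Complex.norm_real, Real.norm_eq_abs, abs_of_pos Real.pi_pos]
        simp
      rw [this]
      gcongr
    have e7 : ‖al v - al z‖ ≤ B1 + M + M + 2 * Real.pi * D1 := by
      rw [e3]
      refine (norm_add_le _ _).trans ?_
      refine add_le_add ((norm_sub_le _ _).trans ?_) e4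
      refine add_le_add ((norm_add_le _ _).trans ?_) k1
      exact add_le_add h4' l1
    linarith

end Vale.Agent.P097.H983
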